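import Vale.Agent.P091.T.H17.Main
import Vale.Agent.P091.T.H957.PXU
import Vale.Agent.P091.T.H350.EpFam
import Vale.Agent.P091.T.H453.PHull
import Vale.Agent.P091.T.H34.PTriv
import Vale.Agent.P091.H413.Sys4

/-! # P091, heart: row BELL, and what is left of the heart -/

set_option autoImplicit false

namespace Vale.Agent.P091.T.H17

/-- **Row BELL**, unconditional. -/
theorem p_bell : P_BELL := bell_of H957.p_X_uncond H350.p_EP

/-- The heart from its two remaining rows. -/
theorem heavyZ_of (h1 : P_CUT) (h2 : P_E1) : HEAVYZ :=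
  p_bell h1 h2 (H34.p_triv H413.lemmaE) H453.p_hull

end Vale.Agent.P091.T.H17
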