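import Mathlib

/-! # P091, heart: the real-number side of one epoch (E2) and the Bellman induction (H7)

`M` mass of the state, `X = K - F + c0 ≥ 0`, `I` value information, `H ≥ 1` number of doublings
left, `n` number of units.  Potential `Phi`. -/

open Finset

namespace Vale.Agent.P091.T.H17

/-- the potential -/
noncomputable def Phi (lam W l X I H n : ℝ) : ℝ :=
  X * (1 + H / l) + lam * I + W * (H + H ^ 2 / l) + W / 10 * n

theorem Phi_nonneg {lam W l X I H n : ℝ} (hlam : 0 ≤ lam) (hW : 0 ≤ W) (hl : 0 ≤ l) (hX : 0 ≤ X)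
    (hI : 0 ≤ I) (hH : 0 ≤ H) (hn : 0 ≤ n) : 0 ≤ Phi lam W l X I H n := by
  unfold Phi; positivity

theorem alg1 {W c r del lk : ℝ} (hW : 1 ≤ W) (hc : 0 ≤ c) (hr : 0 ≤ r) (hd : 1 ≤ del)
    (hlk : lk ≤ W) :
    (c * W + r + del) * del + W * (del + 2 * r * del + del ^ 2) + W / 10 + lk
      ≤ W * (1 + r) * ((c + 8) * del ^ 2) := by
  have hd2 : del ≤ del ^ 2 := by nlinarith
  have hd3 : 1 ≤ del ^ 2 := by nlinarith
  have hd0 : 0 ≤ del ^ 2 := by positivity
  have hW0 : 0 ≤ W := by linarith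
  have a1 : c * W * del ≤ c * W * del ^ 2 := mul_le_mul_of_nonneg_left hd2 (mul_nonneg hc hW0)
  have a2' : r * del ≤ r * del ^ 2 := mul_le_mul_of_nonneg_left hd2 hr
  have a2'' : r * del ^ 2 ≤ W * (r * del ^ 2) :=
    le_mul_of_one_le_left (mul_nonneg hr hd0) hW
  have a3 : del ^ 2 ≤ W * del ^ 2 := le_mul_of_one_le_left hd0 hW
  have a4 : W * del ≤ W * del ^ 2 := mul_le_mul_of_nonneg_left hd2 hW0
  have a5 : W * (r * del) ≤ W * (r * del ^ 2) := mul_le_mul_of_nonneg_left a2' hW0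
  have a6 : W * 1 ≤ W * del ^ 2 := mul_le_mul_of_nonneg_left hd3 hW0
  have a7 : 0 ≤ W * (r * del ^ 2) := mul_nonneg hW0 (mul_nonneg hr hd0)
  have a9 : 0 ≤ c * (W * (r * del ^ 2)) := mul_nonneg hc a7
  have e1 : (c * W + r + del) * del + W * (del + 2 * r * del + del ^ 2) + W / 10 + lk =
      c * W * del + r * del + del ^ 2 + W * del + 2 * (W * (r * del)) + W * del ^ 2 +
        (W / 10 + lk) := by ring
  have e2 : W * (1 + r) * ((c + 8) * del ^ 2) = c * W * del ^ 2 + 8 * (W * del ^ 2) +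
      c * (W * (r * del ^ 2)) + 8 * (W * (r * del ^ 2)) := by ring
  rw [e1, e2]
  linarith

theorem alg2 {W c r del s Dl g s0 : ℝ} (hW : 1 ≤ W) (hc : 0 ≤ c) (hr : 0 ≤ r) (hs : 0 ≤ s)
    (hdel : del = Dl + s)
    (hg : W * (1 + 2 * (c + 8) * Dl ^ 2 + 2 * (c + 8) * s0 ^ 2) ≤ g) :
    W * (1 + r) * ((c + 8) * del ^ 2) ≤
      g * (1 + r) - W * (1 + r) +
        W * (1 + r) * (if s0 < s then 2 * (c + 8) * s ^ 2 else 0) := by
  have hd : del ^ 2 ≤ 2 * Dl ^ 2 + 2 * s ^ 2 := by rw [hdel]; nlinarith [sq_nonneg (Dl - s)]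
  have hWr : 0 ≤ W * (1 + r) := mul_nonneg (by linarith) (by linarith)
  have hc8 : 0 ≤ c + 8 := by linarith
  have b1 : (c + 8) * del ^ 2 ≤ (c + 8) * (2 * Dl ^ 2 + 2 * s ^ 2) :=
    mul_le_mul_of_nonneg_left hd hc8
  have b2 : W * (1 + r) * ((c + 8) * del ^ 2) ≤
      W * (1 + r) * ((c + 8) * (2 * Dl ^ 2 + 2 * s ^ 2)) := mul_le_mul_of_nonneg_left b1 hWr
  have b3 : W * (1 + 2 * (c + 8) * Dl ^ 2 + 2 * (c + 8) * s0 ^ 2) * (1 + r) ≤ g * (1 + r) :=
    mul_le_mul_of_nonneg_right hg (by linarith)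
  have e1 : W * (1 + 2 * (c + 8) * Dl ^ 2 + 2 * (c + 8) * s0 ^ 2) * (1 + r) =
      W * (1 + r) + W * (1 + r) * ((c + 8) * (2 * Dl ^ 2)) +
        W * (1 + r) * ((c + 8) * (2 * s0 ^ 2)) := by ring
  have e2 : W * (1 + r) * ((c + 8) * (2 * Dl ^ 2 + 2 * s ^ 2)) =
      W * (1 + r) * ((c + 8) * (2 * Dl ^ 2)) + W * (1 + r) * ((c + 8) * (2 * s ^ 2)) := by ring
  rw [e1] at b3
  rw [e2] at b2
  split_ifs with hlt
  · have b4 : 0 ≤ W * (1 + r) * ((c + 8) * (2 * s0 ^ 2)) :=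
      mul_nonneg hWr (mul_nonneg hc8 (by positivity))
    have e3 : W * (1 + r) * (2 * (c + 8) * s ^ 2) = W * (1 + r) * ((c + 8) * (2 * s ^ 2)) := by
      ring
    rw [e3]
    linarith
  · have b5 : s ^ 2 ≤ s0 ^ 2 := pow_le_pow_left₀ hs (not_lt.mp hlt) 2
    have b6 : W * (1 + r) * ((c + 8) * (2 * s ^ 2)) ≤ W * (1 + r) * ((c + 8) * (2 * s0 ^ 2)) := by
      apply mul_le_mul_of_nonneg_left _ hWr
      apply mul_le_mul_of_nonneg_left _ hc8
      linarith
    linarith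

/-- one piece: the bracket is paid by the growth `g` -/
theorem piece_bound {W l D c H0 He Xe del s Dl g s0 lk : ℝ} (hl : 1 ≤ l) (hW : 1 ≤ W)
    (hD : D ≤ W * l) (hc : 0 ≤ c) (hH0 : 0 ≤ H0) (hHe : 0 ≤ He) (hDl : 1 ≤ Dl) (hs : 0 ≤ s)
    (hdel : del = Dl + s) (hH : He ≤ H0 + del) (hXe : 0 ≤ Xe) (hX : Xe ≤ c * D + He)
    (hlk : lk ≤ W)
    (hg : W * (1 + 2 * (c + 8) * Dl ^ 2 + 2 * (c + 8) * s0 ^ 2) ≤ g) :
    Xe * (1 + He / l) + W * (He + He ^ 2 / l) + W / 10 + lk ≤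
      Xe * (1 + H0 / l) + W * (H0 + H0 ^ 2 / l) - W * (1 + H0 / l) + g * (1 + H0 / l) +
        W * (1 + H0 / l) * (if s0 < s then 2 * (c + 8) * s ^ 2 else 0) := by
  have hl0 : 0 < l := by linarith
  have hdel1 : 1 ≤ del := by linarith
  have hr0 : 0 ≤ H0 / l := div_nonneg hH0 hl0.le
  have h7 := alg1 (W := W) (c := c) (r := H0 / l) (del := del) (lk := lk) hW hc hr0 hdel1 hlk
  have h8 := alg2 (W := W) (c := c) (r := H0 / l) (del := del) (s := s) (Dl := Dl) (g := g)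
    (s0 := s0) hW hc hr0 hs hdel hg
  -- monotonicity in He
  have hHl : He / l ≤ H0 / l + del / l := by
    rw [← add_div]; exact div_le_div_of_nonneg_right hH hl0.le
  have hdl : del / l ≤ del := div_le_self (by linarith) hl
  have h1 : Xe * (1 + He / l) ≤ Xe * (1 + H0 / l) + Xe * (del / l) := by
    have := mul_le_mul_of_nonneg_left hHl hXe
    have e : Xe * (H0 / l + del / l) = Xe * (H0 / l) + Xe * (del / l) := by ring
    rw [e] at this
    linarith
  have hDl' : D / l ≤ W := by rw [div_le_iff₀ hl0]; exact hD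
  have hXl : Xe / l ≤ c * W + H0 / l + del := by
    have h0 : Xe / l ≤ (c * D + (H0 + del)) / l :=
      div_le_div_of_nonneg_right (by linarith) hl0.le
    have e : (c * D + (H0 + del)) / l = c * (D / l) + H0 / l + del / l := by
      field_simp; ring
    have h3 : c * (D / l) ≤ c * W := mul_le_mul_of_nonneg_left hDl' hc
    linarith
  have h2 : Xe * (del / l) ≤ (c * W + H0 / l + del) * del := by
    have e : Xe * (del / l) = Xe / l * del := by ring
    rw [e]; exact mul_le_mul_of_nonneg_right hXl (by linarith)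
  have h3 : He + He ^ 2 / l ≤ H0 + del + (H0 + del) ^ 2 / l := by
    have h0 : He ^ 2 ≤ (H0 + del) ^ 2 := pow_le_pow_left₀ hHe hH 2
    have := div_le_div_of_nonneg_right h0 hl0.le
    linarith
  have h4 : (H0 + del) ^ 2 / l = H0 ^ 2 / l + 2 * (H0 / l) * del + del ^ 2 / l := by
    field_simp; ring
  have h5 : del ^ 2 / l ≤ del ^ 2 := div_le_self (by positivity) hl
  have h6 : W * (He + He ^ 2 / l) ≤
      W * (H0 + H0 ^ 2 / l) + W * (del + 2 * (H0 / l) * del + del ^ 2) := by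
    have h0 : He + He ^ 2 / l ≤ H0 + H0 ^ 2 / l + (del + 2 * (H0 / l) * del + del ^ 2) := by
      linarith
    have h := mul_le_mul_of_nonneg_left h0 (by linarith : (0:ℝ) ≤ W)
    have e : W * (H0 + H0 ^ 2 / l + (del + 2 * (H0 / l) * del + del ^ 2)) =
      W * (H0 + H0 ^ 2 / l) + W * (del + 2 * (H0 / l) * del + del ^ 2) := by ring
    rw [e] at h
    exact h
  linarith

/-- **(E2)**: the potentials of the exits of one epoch. -/
theorem E2 {ι : Type*} (E : Finset ι) (pc : ι → Prop) [DecidablePred pc]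
    (m X I H n s Dl g : ι → ℝ)
    {M X0 I0 H0 n0 Iex W l D c lam s0 kap err : ℝ}
    (hl : 1 ≤ l) (hW : 1 ≤ W) (hD : D ≤ W * l) (hc : 0 ≤ c) (hlam : 0 ≤ lam)
    (hM : 0 ≤ M) (hH0 : 1 ≤ H0) (hn0 : 0 ≤ n0)
    (hm : ∀ e ∈ E, 0 ≤ m e) (hsum : ∑ e ∈ E, m e ≤ M)
    (hX : ∀ e ∈ E, 0 ≤ X e) (hH : ∀ e ∈ E, 0 ≤ H e)
    (hdH : ∀ e ∈ E, ¬ pc e → H e ≤ H0 - 1) (hdn : ∀ e ∈ E, ¬ pc e → n e ≤ n0)
    (hpH : ∀ e ∈ E, pc e → H e ≤ H0 + (Dl e + s e)) (hpn : ∀ e ∈ E, pc e → n e ≤ n0 + 1)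
    (hpX : ∀ e ∈ E, pc e → X e ≤ c * D + H e)
    (hpD : ∀ e ∈ E, pc e → 1 ≤ Dl e) (hps : ∀ e ∈ E, pc e → 0 ≤ s e)
    (hpg : ∀ e ∈ E, pc e → W * (1 + 2 * (c + 8) * Dl e ^ 2 + 2 * (c + 8) * s0 ^ 2) ≤ g e)
    (hKF : ∑ e ∈ E, m e * X e ≤ M * (X0 + err) - ∑ e ∈ E with pc e, m e * g e)
    (hI : ∑ e ∈ E, m e * I e ≤ M * (I0 - Iex) + kap * ∑ e ∈ E with pc e, m e)
    (hkap : lam * kap ≤ W) (herr : err ≤ W / 4)
    (htail : ∑ e ∈ E with (pc e ∧ s0 < s e), m e * (2 * (c + 8) * s e ^ 2) ≤ M / 4) :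
    ∑ e ∈ E, m e * Phi lam W l (X e) (I e) (H e) (n e) ≤
      M * (Phi lam W l X0 I0 H0 n0 - lam * Iex - W / 2) := by
  classical
  have hl0 : 0 < l := by linarith
  set r : ℝ := H0 / l with hr
  have hr0 : 0 ≤ r := by positivity
  have key : ∀ e ∈ E, m e * Phi lam W l (X e) (I e) (H e) (n e) ≤
      (1 + r) * (m e * X e) + lam * (m e * I e) +
        (W * (H0 + H0 ^ 2 / l) + W / 10 * n0 - W * (1 + r)) * m e +
        ((if pc e then (1 + r) * (m e * g e) - lam * kap * m e else 0) +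
          (if (pc e ∧ s0 < s e) then W * (1 + r) * (m e * (2 * (c + 8) * s e ^ 2)) else 0)) := by
    intro e he
    have hme := hm e he
    have hXe := hX e he
    have hHe := hH e he
    by_cases hp : pc e
    · have hb := piece_bound (W := W) (l := l) (D := D) (c := c) (H0 := H0) (He := H e)
        (Xe := X e) (del := Dl e + s e) (s := s e) (Dl := Dl e) (g := g e) (s0 := s0)
        (lk := lam * kap) hl hW hD hc (by linarith) hHe (hpD e he hp) (hps e he hp) rfl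
        (hpH e he hp) hXe (hpX e he hp) hkap (hpg e he hp)
      have hn' := hpn e he hp
      have hn2 : W / 10 * n e ≤ W / 10 * (n0 + 1) := mul_le_mul_of_nonneg_left hn' (by linarith)
      have hb' : Phi lam W l (X e) (I e) (H e) (n e) ≤
          (1 + r) * X e + lam * I e + (W * (H0 + H0 ^ 2 / l) + W / 10 * n0 - W * (1 + r)) +
            ((1 + r) * g e - lam * kap) +
            W * (1 + r) * (if s0 < s e then 2 * (c + 8) * s e ^ 2 else 0) := by
        unfold Phi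
        rw [← hr] at hb
        linarith
      have := mul_le_mul_of_nonneg_left hb' hme
      by_cases hs : s0 < s e
      · simp only [hp, hs, true_and, if_true] at this ⊢
        linarith
      · simp only [hp, hs, and_false, if_true, if_false] at this ⊢
        linarith
    · have h1 := hdH e he hp
      have h2 := hdn e he hp
      have h3 : X e * (1 + H e / l) ≤ X e * (1 + r) := by
        apply mul_le_mul_of_nonneg_left _ hXe
        have : H e / l ≤ r := by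
          rw [hr]; exact div_le_div_of_nonneg_right (by linarith) hl0.le
        linarith
      have h4 : H e + H e ^ 2 / l ≤ H0 + H0 ^ 2 / l - (1 + r) := by
        have a : H e ^ 2 ≤ (H0 - 1) ^ 2 := by nlinarith
        have b : H e ^ 2 / l ≤ (H0 - 1) ^ 2 / l := div_le_div_of_nonneg_right a hl0.le
        have cc : (H0 - 1) ^ 2 / l ≤ H0 ^ 2 / l - r := by
          have : (H0 - 1) ^ 2 / l = H0 ^ 2 / l - r - (H0 - 1) / l := by
            rw [hr, ← sub_div, ← sub_div]; congr 1; ring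
          have h0 : 0 ≤ (H0 - 1) / l := by
            apply div_nonneg _ hl0.le; linarith
          linarith
        linarith
      have h5 : W * (H e + H e ^ 2 / l) ≤ W * (H0 + H0 ^ 2 / l - (1 + r)) :=
        mul_le_mul_of_nonneg_left h4 (by linarith)
      have h6 : W / 10 * n e ≤ W / 10 * n0 := mul_le_mul_of_nonneg_left h2 (by linarith)
      have hb' : Phi lam W l (X e) (I e) (H e) (n e) ≤
          (1 + r) * X e + lam * I e + (W * (H0 + H0 ^ 2 / l) + W / 10 * n0 - W * (1 + r)) := by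
        unfold Phi; linarith
      have := mul_le_mul_of_nonneg_left hb' hme
      simp only [hp, false_and, if_false]
      linarith
  have hs1 := Finset.sum_le_sum key
  simp only [Finset.sum_add_distrib, ← Finset.mul_sum] at hs1
  rw [← Finset.sum_filter, ← Finset.sum_filter] at hs1
  simp only [Finset.sum_sub_distrib, ← Finset.mul_sum] at hs1
  set SX := ∑ e ∈ E, m e * X e
  set SI := ∑ e ∈ E, m e * I e
  set Sm := ∑ e ∈ E, m e
  set Sg := ∑ e ∈ E with pc e, m e * g e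
  set Sp := ∑ e ∈ E with pc e, m e
  set ST := ∑ e ∈ E with (pc e ∧ s0 < s e), m e * (2 * (c + 8) * s e ^ 2)
  have c1 : (1 + r) * SX ≤ (1 + r) * (M * (X0 + err) - Sg) :=
    mul_le_mul_of_nonneg_left hKF (by linarith)
  have c2 : lam * SI ≤ lam * (M * (I0 - Iex) + kap * Sp) := mul_le_mul_of_nonneg_left hI hlam
  have c3 : (W * (H0 + H0 ^ 2 / l) + W / 10 * n0 - W * (1 + r)) * Sm ≤
      (W * (H0 + H0 ^ 2 / l) + W / 10 * n0 - W * (1 + r)) * M := by
    apply mul_le_mul_of_nonneg_left hsum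
    have : 1 + r ≤ H0 + H0 ^ 2 / l := by
      have : r ≤ H0 ^ 2 / l := by
        rw [hr]; exact div_le_div_of_nonneg_right (by nlinarith) hl0.le
      linarith
    have h1 : W * (1 + r) ≤ W * (H0 + H0 ^ 2 / l) := mul_le_mul_of_nonneg_left this (by linarith)
    have h2 : 0 ≤ W / 10 * n0 := by positivity
    linarith
  have c4 : W * (1 + r) * ST ≤ W * (1 + r) * (M / 4) :=
    mul_le_mul_of_nonneg_left htail (by positivity)
  have c5 : (1 + r) * (M * err) ≤ (1 + r) * (M * (W / 4)) := by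
    apply mul_le_mul_of_nonneg_left _ (by linarith)
    exact mul_le_mul_of_nonneg_left herr hM
  have c6 : 0 ≤ M * W * r := by positivity
  have e1 : Phi lam W l X0 I0 H0 n0 = X0 * (1 + r) + lam * I0 + W * (H0 + H0 ^ 2 / l) +
      W / 10 * n0 := by unfold Phi; rw [hr]
  rw [e1]
  have f1 : (1 + r) * (M * (X0 + err) - Sg) = M * (X0 * (1 + r)) + (1 + r) * (M * err) -
      (1 + r) * Sg := by ring
  have f2 : lam * (M * (I0 - Iex) + kap * Sp) = M * (lam * I0) - M * (lam * Iex) +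
      lam * kap * Sp := by ring
  have f3 : (W * (H0 + H0 ^ 2 / l) + W / 10 * n0 - W * (1 + r)) * M =
      M * (W * (H0 + H0 ^ 2 / l)) + M * (W / 10 * n0) - M * W - M * W * r := by ring
  have f4 : W * (1 + r) * (M / 4) = M * W / 4 + M * W * r / 4 := by ring
  have f5 : (1 + r) * (M * (W / 4)) = M * W / 4 + M * W * r / 4 := by ring
  have f6 : M * (X0 * (1 + r) + lam * I0 + W * (H0 + H0 ^ 2 / l) + W / 10 * n0 - lam * Iex -
      W / 2) = M * (X0 * (1 + r)) + M * (lam * I0) + M * (W * (H0 + H0 ^ 2 / l)) +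
      M * (W / 10 * n0) - M * (lam * Iex) - M * W / 2 := by ring
  rw [f1] at c1; rw [f2] at c2; rw [f3] at c3; rw [f4] at c4; rw [f5] at c5; rw [f6]
  linarith

/-- the tail of the sparse nodes from the exponential moment `∑ m e 2^(s e / 2) ≤ 2 M`
(see `Ep.lean`, `tail`) -/
theorem tail_of_exp {ι : Type*} (E : Finset ι) (pc : ι → Prop) [DecidablePred pc]
    (m s : ι → ℝ) {M c s0 : ℝ} (hm : ∀ e ∈ E, 0 ≤ m e)
    (hs0 : ∀ t : ℝ, s0 < t → 2 * (c + 8) * t ^ 2 ≤ (2:ℝ) ^ (t / 2) / 8)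
    (hexp : ∑ e ∈ E with pc e, m e * (2:ℝ) ^ (s e / 2) ≤ 2 * M) :
    ∑ e ∈ E with (pc e ∧ s0 < s e), m e * (2 * (c + 8) * s e ^ 2) ≤ M / 4 := by
  have h1 : ∑ e ∈ E with (pc e ∧ s0 < s e), m e * (2 * (c + 8) * s e ^ 2) ≤
      ∑ e ∈ E with (pc e ∧ s0 < s e), m e * (2:ℝ) ^ (s e / 2) / 8 := by
    apply Finset.sum_le_sum
    intro e he
    rw [Finset.mem_filter] at he
    have := mul_le_mul_of_nonneg_left (hs0 (s e) he.2.2) (hm e he.1)
    rw [mul_div_assoc]; exact this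
  have h2 : ∑ e ∈ E with (pc e ∧ s0 < s e), m e * (2:ℝ) ^ (s e / 2) / 8 ≤
      ∑ e ∈ E with pc e, m e * (2:ℝ) ^ (s e / 2) / 8 := by
    apply Finset.sum_le_sum_of_subset_of_nonneg
    · intro e he
      rw [Finset.mem_filter] at he ⊢
      exact ⟨he.1, he.2.1⟩
    · intro e he _
      rw [Finset.mem_filter] at he
      have := hm e he.1
      positivity
  simp only [← Finset.sum_div] at h1 h2
  linarith

theorem exists_s0 (c : ℝ) : ∃ s0 : ℝ, 0 ≤ s0 ∧
    ∀ t : ℝ, s0 < t → 2 * (c + 8) * t ^ 2 ≤ (2:ℝ) ^ (t / 2) / 8 := by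
  have h := isLittleO_pow_exp_pos_mul_atTop (k := 2) (b := Real.log 2 / 2)
    (by have := Real.log_pos (by norm_num : (1:ℝ) < 2); positivity)
  have h' := (h.bound (c := 1 / (16 * (|c + 8| + 1))) (by positivity))
  obtain ⟨a, ha⟩ := Filter.eventually_atTop.mp h'
  refine ⟨max a 0, le_max_right _ _, fun t ht => ?_⟩
  have h1 := ha t (le_trans (le_max_left _ _) ht.le)
  have e1 : (2:ℝ) ^ (t / 2) = Real.exp (Real.log 2 / 2 * t) := by
    rw [Real.rpow_def_of_pos (by norm_num)]; congr 1; ring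
  rw [Real.norm_of_nonneg (by positivity), Real.norm_of_nonneg (Real.exp_pos _).le] at h1
  rw [e1]
  have h2 : c + 8 ≤ |c + 8| + 1 := by linarith [le_abs_self (c + 8)]
  have h3 : 0 ≤ t ^ 2 := by positivity
  have h4 : 0 < |c + 8| + 1 := by positivity
  calc 2 * (c + 8) * t ^ 2 ≤ 2 * (|c + 8| + 1) * t ^ 2 := by nlinarith
    _ ≤ 2 * (|c + 8| + 1) * (1 / (16 * (|c + 8| + 1)) * Real.exp (Real.log 2 / 2 * t)) :=
        mul_le_mul_of_nonneg_left h1 (by positivity)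
    _ = Real.exp (Real.log 2 / 2 * t) / 8 := by field_simp; norm_num

end Vale.Agent.P091.T.H17
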