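import Vale.Agent.P091.T.H17.Ep
import Vale.Agent.P091.T.Props

/-! # P091, heart, row BELL: the literal rules of an epoch and the states -/

set_option autoImplicit false

open Finset
open Vale.Agent.P091.Spec
open Vale.Agent.P065.Ent

noncomputable section

namespace Vale.Agent.P091.T.H17

section
variable {C1 D : ℝ} {n b : ℕ} {ι : Type} [Fintype ι] (d : ZData C1 D n b ι)

/-- the density of the set `W` in the node -/
def dn (j a : ℕ) (W : Finset ℕ) : ℝ := av n j a (cut d.p W)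

/-- stop rule of an epoch whose root has the density `B0`: bottom, doubling, sparse -/
def StopR (s0 B0 : ℝ) (j a : ℕ) (W : Finset ℕ) : Prop :=
  n < j + 2 ∨ 2 * B0 < dn d j a W ∨ dn d j a W < s0 * B0

/-- the rule holds -/
def DoneR (A : ℝ) (J : List (Un n b)) (j a : ℕ) (W : Finset ℕ) : Prop :=
  Rule d A J (cut d.p W) j a

/-- `Y` is a piece of `W` with the stage `w.1` and the unit `w.2` -/
def PieceR (A c c' : ℝ) (J : List (Un n b)) (j a : ℕ) (W : Finset ℕ) (w : ℕ × Un n b)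
    (Y : Finset ℕ) : Prop :=
  1 ≤ w.1 ∧ w.1 ≤ sm A C1 D ∧ w.2.Ok (ep c D) D Y ∧
    c' * (1 / 4 : ℝ) ^ w.1 * dn d j a W ≤ dn d j a Y ∧
    F J j + th A D w.1 / 5 ≤ F (w.2 :: J) j

/-- a plan of an epoch with the root `(j0, a0)`, set `Y`, list `J` -/
def Plan (A c c' s0 : ℝ) (J : List (Un n b)) (j0 a0 : ℕ) (Y : Finset ℕ)
    (E : Ep (ℕ × Un n b)) : Prop :=
  Fits n (StopR d s0 (dn d j0 a0 Y)) (DoneR d A J) (PieceR d A c c' J) E j0 a0 Y

/-- a state: a node, a set of leaves, a list of units -/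
structure St (n b : ℕ) where
  j : ℕ
  a : ℕ
  Y : Finset ℕ
  J : List (Un n b)

/-- valid states (parameter `c` of the accuracy) -/
structure Valid (c : ℝ) (S : St n b) : Prop where
  j_le : S.j ≤ n
  a_lt : S.a < 2 ^ S.j
  Y_sub : S.Y ⊆ nd n S.j S.a
  pos : 0 < ∑ i ∈ S.Y, d.p i
  alive : dn d S.j S.a S.Y ≤ Real.log D ^ 2
  len : S.J.length ≤ qm D
  ok : ∀ k ∈ S.J, k.Ok (ep c D) D S.Y

end

/-- **(X)**, one epoch: relative entropy against the entropy of the list (owner 957).  `err` is the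
error per unit of mass. -/
def P_X : Prop := ∀ c c' : ℝ, 0 < c → 0 < c' → ∀ s0 A C1 : ℝ, 0 < s0 → 1 ≤ A → 0 ≤ C1 →
  ∃ D0 : ℝ, ∀ (D : ℝ) (n : ℕ) (ι : Type) [Fintype ι] (d : ZData C1 D n (bb D) ι)
    (J : List (Un n (bb D))) (j0 a0 : ℕ) (Y : Finset ℕ) (E : Ep (ℕ × Un n (bb D))),
    D0 ≤ D → j0 ≤ n → a0 < 2 ^ j0 → Y ⊆ nd n j0 a0 → 0 < ∑ i ∈ Y, d.p i →
    J.length ≤ qm D → (∀ k ∈ J, k.Ok (ep c D) D Y) → Plan d A c c' s0 J j0 a0 Y E →
    ((exits n E j0 a0 Y).map fun e =>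
      ms n e.j e.a (cut d.p e.Y) * (KL n e.j e.a (cut d.p e.Y) - F J e.j)).sum ≤
    ms n j0 a0 (cut d.p Y) * (KL n j0 a0 (cut d.p Y) - F J j0 + D / (ll D : ℝ) ^ 2) +
      ((exits n E j0 a0 Y).map fun e => if e.b.isSome then
        ms n e.j e.a (cut d.p e.Y) * (Real.log (dn d e.j e.a e.Z / dn d e.j e.a e.Y) + 1)
        else 0).sum

/-- the sets on departure form an epoch (owner 350) -/
def P_EP : Prop := ∀ c c' : ℝ, 0 < c → 0 < c' → ∀ s0 A C1 : ℝ, 0 < s0 → 1 ≤ A → 0 ≤ C1 →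
  ∃ D0 : ℝ, ∀ (D : ℝ) (n : ℕ) (ι : Type) [Fintype ι] (d : ZData C1 D n (bb D) ι)
    (J : List (Un n (bb D))) (j0 a0 : ℕ) (Y : Finset ℕ) (E : Ep (ℕ × Un n (bb D))),
    D0 ≤ D → j0 ≤ n → a0 < 2 ^ j0 → Y ⊆ nd n j0 a0 → Real.exp (-D) ≤ dn d j0 a0 Y →
    J.length ≤ qm D → (∀ k ∈ J, k.Ok (ep c D) D Y) → Plan d A c c' s0 J j0 a0 Y E →
    Epoch d A c s0 J j0 a0 Y (dep n E j0 a0 Y)

end Vale.Agent.P091.T.H17
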