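import Vale.Agent.P091.T.H17.Tree

/-! # P091, heart, row BELL: elementary facts about the data -/

set_option autoImplicit false

open Finset
open Vale.Agent.P091.Spec
open Vale.Agent.P065.Ent

noncomputable section

namespace Vale.Agent.P091.T.H17

theorem nd_sub {n j j' : ℕ} (a' : ℕ) (h : j ≤ j') (hn : j' ≤ n) :
    nd n j' a' ⊆ nd n j (a' / 2 ^ (j' - j)) := by
  intro i hi
  simp only [nd, mem_Ico] at hi ⊢
  have e : 2 ^ (n - j) = 2 ^ (j' - j) * 2 ^ (n - j') := by rw [← pow_add]; congr 1; omega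
  have h1 : a' / 2 ^ (j' - j) * 2 ^ (j' - j) ≤ a' := Nat.div_mul_le_self _ _
  have h2 : a' + 1 ≤ (a' / 2 ^ (j' - j) + 1) * 2 ^ (j' - j) := by
    have := Nat.lt_div_mul_add (a := a') (b := 2 ^ (j' - j)) (by positivity)
    nlinarith
  rw [e]
  constructor
  · calc a' / 2 ^ (j' - j) * (2 ^ (j' - j) * 2 ^ (n - j')) =
        (a' / 2 ^ (j' - j) * 2 ^ (j' - j)) * 2 ^ (n - j') := by ring
      _ ≤ a' * 2 ^ (n - j') := Nat.mul_le_mul_right _ h1
      _ ≤ i := hi.1
  · calc i < (a' + 1) * 2 ^ (n - j') := hi.2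
      _ ≤ ((a' / 2 ^ (j' - j) + 1) * 2 ^ (j' - j)) * 2 ^ (n - j') := Nat.mul_le_mul_right _ h2
      _ = _ := by ring

section
variable {C1 D : ℝ} {n b : ℕ} {ι : Type} [Fintype ι] (d : ZData C1 D n b ι)

theorem cut_nonneg (Y : Finset ℕ) (i : ℕ) : 0 ≤ cut d.p Y i := by
  unfold cut; split_ifs; exacts [d.p_nonneg i, le_rfl]

theorem cut_le (Y : Finset ℕ) (i : ℕ) : cut d.p Y i ≤ d.p i := by
  unfold cut; split_ifs; exacts [le_rfl, d.p_nonneg i]

theorem sum_cut (p : ℕ → ℝ) {j a : ℕ} {W : Finset ℕ} (hW : W ⊆ nd n j a) :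
    ∑ i ∈ nd n j a, cut p W i = ∑ i ∈ W, p i := by
  unfold cut
  rw [← Finset.sum_filter]
  apply Finset.sum_congr _ (fun _ _ => rfl)
  ext i
  simp only [mem_filter]
  exact ⟨fun h => h.2, fun h => ⟨hW h, h⟩⟩

theorem dn_eq {j a : ℕ} {W : Finset ℕ} (hW : W ⊆ nd n j a) :
    dn d j a W = (∑ i ∈ W, d.p i) / 2 ^ (n - j) := by
  unfold dn av
  rw [sum_cut d.p hW]

theorem ms_eq {j a : ℕ} {W : Finset ℕ} (hW : W ⊆ nd n j a) :
    ms n j a (cut d.p W) = (∑ i ∈ W, d.p i) / 2 ^ n := by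
  unfold ms
  rw [sum_cut d.p hW]

theorem ms_eq_dn {j a : ℕ} {W : Finset ℕ} (hW : W ⊆ nd n j a) (hj : j ≤ n) :
    ms n j a (cut d.p W) = dn d j a W * (1 / 2 : ℝ) ^ j := by
  rw [ms_eq d hW, dn_eq d hW]
  have e : (2:ℝ) ^ n = 2 ^ (n - j) * 2 ^ j := by rw [← pow_add]; congr 1; omega
  rw [e, one_div, inv_pow]
  field_simp

theorem ms_nonneg (j a : ℕ) (W : Finset ℕ) : 0 ≤ ms n j a (cut d.p W) := by
  unfold ms
  exact div_nonneg (Finset.sum_nonneg fun i _ => cut_nonneg d W i) (by positivity)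

theorem dn_nonneg (j a : ℕ) (W : Finset ℕ) : 0 ≤ dn d j a W := by
  unfold dn av
  exact div_nonneg (Finset.sum_nonneg fun i _ => cut_nonneg d W i) (by positivity)

theorem dn_mono {j a : ℕ} {W Y : Finset ℕ} (h : Y ⊆ W) : dn d j a Y ≤ dn d j a W := by
  unfold dn av
  apply div_le_div_of_nonneg_right _ (by positivity)
  apply Finset.sum_le_sum
  intro i _
  unfold cut
  split_ifs with h1 h2 h2
  · exact le_rfl
  · exact absurd (h h1) h2
  · exact d.p_nonneg i
  · exact le_rfl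

theorem BZ_congr {q q' : ℕ → ℝ} (r : ZMod (2 ^ (n + b))) {j a : ℕ}
    (h : ∀ i ∈ nd n j a, q i = q' i) : BZ n b q r j a = BZ n b q' r j a := by
  unfold BZ avC
  congr 1
  exact Finset.sum_congr rfl fun i hi => by simp only [h i hi]

theorem BZ_add {q q1 q2 : ℕ → ℝ} (r : ZMod (2 ^ (n + b))) (j a : ℕ)
    (h : ∀ i, q i = q1 i + q2 i) : BZ n b q r j a = BZ n b q1 r j a + BZ n b q2 r j a := by
  unfold BZ avC
  rw [← add_div, ← Finset.sum_add_distrib]
  congr 1
  apply Finset.sum_congr rfl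
  intro i _
  simp only [h i]; push_cast; ring

theorem ng_congr {q q' : ℕ → ℝ} {j a : ℕ} (hj : j < n)
    (h : ∀ i ∈ nd n j a, q i = q' i) : ng d q j a = ng d q' j a := by
  unfold ng
  apply Finset.sum_congr rfl
  intro k _
  have h1 := BZ_congr (b := b) (d.r k) (fun i hi => h i (nd_succ_left j a hj hi))
  have h2 := BZ_congr (b := b) (d.r k) (fun i hi => h i (nd_succ_right j a hj hi))
  unfold dZ
  rw [h1, h2]

theorem ng_add {q q1 q2 : ℕ → ℝ} (j a : ℕ) (h : ∀ i, q i = q1 i + q2 i) :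
    ng d q j a = ng d q1 j a + ng d q2 j a := by
  unfold ng
  rw [← Finset.sum_add_distrib]
  apply Finset.sum_congr rfl
  intro k _
  unfold dZ
  rw [BZ_add (b := b) (d.r k) (j + 1) (2 * a) h, BZ_add (b := b) (d.r k) (j + 1) (2 * a + 1) h]
  split_ifs <;> ring

theorem ng_zero {q : ℕ → ℝ} {j a : ℕ} (hj : j < n) (h : ∀ i ∈ nd n j a, q i = 0) :
    ng d q j a = 0 := by
  have h1 : ng d q j a = ng d (fun _ => 0) j a := ng_congr d hj h
  have h2 : ng d (fun _ => (0:ℝ)) j a = ng d (fun _ => (0:ℝ)) j a + ng d (fun _ => (0:ℝ)) j a :=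
    ng_add d j a (fun _ => by simp)
  rw [h1]
  simpa using h2

theorem ng_dead (q : ℕ → ℝ) {j a : ℕ} (h : ∀ i ∈ nd n j a, ∀ k, d.A k i = 0) :
    ng d q j a = 0 := by
  unfold ng
  apply Finset.sum_eq_zero
  intro k _
  have : ∑ i ∈ nd n j a, d.A k i * (sg n j i : ℂ) = 0 :=
    Finset.sum_eq_zero fun i hi => by rw [h i hi k, zero_mul]
  rw [this]
  simp

theorem ng_hadd (j a : ℕ) (W Y : Finset ℕ) (h : Y ⊆ W) :
    ng d (cut d.p W) j a = ng d (cut d.p Y) j a + ng d (cut d.p (W \ Y)) j a := by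
  apply ng_add
  intro i
  unfold cut
  by_cases h1 : i ∈ Y
  · simp [h1, h h1]
  · by_cases h2 : i ∈ W <;> simp [h1, h2]

theorem ng_hloc (j a j' a' : ℕ) (W : Finset ℕ) (h : j ≤ j') (hn : j' < n - 1)
    (ha : a' / 2 ^ (j' - j) = a) :
    ng d (cut d.p (W ∩ nd n j a)) j' a' = ng d (cut d.p W) j' a' := by
  apply ng_congr d (by omega)
  intro i hi
  have h1 := nd_sub a' h (by omega : j' ≤ n) hi
  rw [ha] at h1
  unfold cut
  by_cases h2 : i ∈ W <;> simp [h1, h2]

/-- decomposition of the gain over a plan -/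
theorem gain_plan {Stop Done : ℕ → ℕ → Finset ℕ → Prop} {β : Type}
    {Piece : ℕ → ℕ → Finset ℕ → β → Finset ℕ → Prop} (E : Ep β) (j a : ℕ) (W : Finset ℕ)
    (hf : Fits n Stop Done Piece E j a W) :
    ‖gain d (cut d.p W) j a‖ ≤
      ‖below j a (n - 1) fun j' a' => ng d (cut d.p (dep n E j a W j' a')) j' a'‖ +
        ((exits n E j a W).map fun e => ‖gain d (cut d.p e.Y) e.j e.a‖).sum :=
  norm_below_plan (fun j' a' W => ng d (cut d.p W) j' a')
    (fun j a W Y h => ng_hadd d j a W Y h)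
    (fun j a j' a' W h h' h'' => ng_hloc d j a j' a' W h h' h'') E j a W hf

theorem gain_bot (q : ℕ → ℝ) {j : ℕ} (a : ℕ) (h : n < j + 2) : gain d q j a = 0 :=
  below_ge _ (by omega)

theorem gain_zero {q : ℕ → ℝ} (h : ∀ i, q i = 0) (j a : ℕ) : gain d q j a = 0 := by
  unfold gain
  rw [below_congr (g := fun _ _ => 0), below_zero]
  intro j' a' _ h2 _
  exact ng_zero d (by omega) fun i _ => h i

theorem gain_dead (q : ℕ → ℝ) {j a : ℕ} (hj : j ≤ n) {W : Finset ℕ}
    (h : Real.log D ^ 2 < dn d j a W) : gain d q j a = 0 := by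
  unfold gain
  rw [below_congr (g := fun _ _ => 0), below_zero]
  intro j' a' h1 h2 h3
  apply ng_dead
  intro i hi k
  by_contra hA
  have h4 := d.alive k i hA j hj
  have h5 : i ∈ nd n j a := by
    have := nd_sub a' h1 (by omega : j' ≤ n) hi
    rwa [h3] at this
  have h6 : anc n j i = a := by
    simp only [nd, mem_Ico] at h5
    unfold anc
    apply Nat.div_eq_of_lt_le
    · exact h5.1
    · exact h5.2
  rw [h6] at h4
  have h7 : dn d j a W ≤ av n j a d.p := by
    unfold dn av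
    apply div_le_div_of_nonneg_right _ (by positivity)
    exact Finset.sum_le_sum fun i _ => cut_le d W i
  linarith

/-- relative entropy against the density -/
theorem KL_le {j a : ℕ} {W : Finset ℕ} (hW : W ⊆ nd n j a)
    (hpos : 0 < ∑ i ∈ W, d.p i) : KL n j a (cut d.p W) ≤ D - Real.log (dn d j a W) := by
  have hdn : 0 < dn d j a W := by rw [dn_eq d hW]; positivity
  unfold KL
  rw [sum_cut d.p hW]
  set S := ∑ i ∈ W, d.p i with hS
  have h1 : ∀ i ∈ nd n j a, cut d.p W i / S * Real.log (cut d.p W i * 2 ^ (n - j) / S) ≤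
      cut d.p W i / S * (D - Real.log (dn d j a W)) := by
    intro i _
    rcases (cut_nonneg d W i).eq_or_lt with h0 | h0
    · rw [← h0]; simp
    · apply mul_le_mul_of_nonneg_left _ (by positivity)
      have e1 : cut d.p W i * 2 ^ (n - j) / S = cut d.p W i / dn d j a W := by
        rw [dn_eq d hW, ← hS]; field_simp
      rw [e1, Real.log_div h0.ne' hdn.ne']
      have h2 : Real.log (cut d.p W i) ≤ D := by
        rw [Real.log_le_iff_le_exp h0]
        exact (cut_le d W i).trans (d.p_le i)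
      linarith
  calc _ ≤ ∑ i ∈ nd n j a, cut d.p W i / S * (D - Real.log (dn d j a W)) :=
        Finset.sum_le_sum h1
    _ = (∑ i ∈ nd n j a, cut d.p W i) / S * (D - Real.log (dn d j a W)) := by
        rw [← Finset.sum_mul, Finset.sum_div]
    _ = _ := by rw [sum_cut d.p hW, ← hS, div_self hpos.ne', one_mul]

end

/-! ### the law of `R_J` -/

theorem isProb_lawR {n b : ℕ} (J : List (Un n b)) (h : ∀ k ∈ J, IsProb k.P) :
    IsProb (lawR J) := by
  induction J with
  | nil =>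
    constructor
    · intro r; simp only [lawR]; split_ifs <;> norm_num
    · simp [lawR]
  | cons k J ih =>
    have h1 := ih fun k' hk' => h k' (List.mem_cons_of_mem _ hk')
    have h2 := h k List.mem_cons_self
    constructor
    · intro r
      simp only [lawR]
      exact Finset.sum_nonneg fun s _ => mul_nonneg (h2.nonneg s) (h1.nonneg _)
    · simp only [lawR]
      rw [Finset.sum_comm]
      have h3 : ∀ s, ∑ r, k.P s * lawR J (r - s) = k.P s := by
        intro s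
        rw [← Finset.mul_sum, Fintype.sum_equiv (Equiv.subRight s) (fun r => lawR J (r - s))
          (fun r => lawR J r) (fun r => rfl), h1.sum, mul_one]
      rw [Finset.sum_congr rfl fun s _ => h3 s]
      exact h2.sum

theorem F_nonneg {n b : ℕ} (J : List (Un n b)) (h : ∀ k ∈ J, IsProb k.P) (j : ℕ) :
    0 ≤ F J j := H_nonneg (isProb_lawR J h) _

theorem ok_mono {n b : ℕ} {k : Un n b} {ε D : ℝ} {Y Y' : Finset ℕ} (h : k.Ok ε D Y)
    (hY : Y' ⊆ Y) : k.Ok ε D Y' :=
  ⟨h.P1, h.ρ1, h.supp, h.coh, fun lam h1 h2 => h.info lam h1 fun y hy => by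
    obtain ⟨i, hi, e⟩ := h2 y hy
    exact ⟨i, hY hi, e⟩⟩

end Vale.Agent.P091.T.H17
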