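import Vale.Agent.P091.T.H17.Arith

/-! # P091, heart: the Bellman induction (H7)

`Step` is the complete one-epoch hypothesis; `bellman` is the induction. -/

open Finset

namespace Vale.Agent.P091.T.H17

/-- The numbers of a state: `M` mass, `X = K - F + c0`, `I` value information, `H` doublings left,
`n` number of units, `ht` height of the node, `gain` the quantity to be bounded. -/
structure StData (St : Type*) where
  gain : St → ℝ
  M : St → ℝ
  X : St → ℝ
  I : St → ℝ
  H : St → ℝ
  n : St → ℕ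
  ht : St → ℕ

/-- The parameters. `W = A D / l`, `q` maximal number of units, `c` : `X ≤ c D + H` for pieces,
`CE` : cost of one epoch `CE (W + lam0 Iex)` per mass. -/
structure Par where
  D : ℝ
  l : ℝ
  A : ℝ
  lam : ℝ
  c : ℝ
  s0 : ℝ
  kap : ℝ
  err : ℝ
  CE : ℝ
  C0 : ℝ
  lam0 : ℝ
  q : ℕ

namespace Par
variable (P : Par)
/-- the unit of payment -/
noncomputable def W : ℝ := P.A * P.D / P.l

structure Ok : Prop where
  D1 : 0 < P.D
  l1 : 1 ≤ P.l
  A1 : 1 ≤ P.A
  lam0 : 0 ≤ P.lam
  lam00 : 0 ≤ P.lam0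
  lam1 : P.lam0 ≤ P.lam
  c0 : 0 ≤ P.c
  CE0 : 0 ≤ P.CE
  C00 : 0 ≤ P.C0
  hs0 : ∀ t : ℝ, P.s0 < t → 2 * (P.c + 8) * t ^ 2 ≤ (2:ℝ) ^ (t / 2) / 8
  W1 : 1 ≤ P.W
  kap1 : P.lam * P.kap ≤ P.W
  err1 : P.err ≤ P.W / 4
  q1 : P.l ^ 3 ≤ P.q

end Par

/-- The exits of one epoch: finite family `st e` with masses; `pc e` = the exit is a piece
(`¬ pc e` = doubling exit); `s e` = `log2 (B(u) / B(W_e))` cut off at `0`, `Dl e ≥ 1` = bits of the
piece, `g e` = net growth. -/
structure EpochOk {St : Type*} (Q : StData St) (P : Par) (V : St → Prop) (S : St) : Prop where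
  ex : ∃ (ι : Type) (_ : Fintype ι) (st : ι → St) (pc : ι → Prop) (_ : DecidablePred pc)
    (s Dl g : ι → ℝ) (Iex : ℝ),
    0 ≤ Iex ∧
    (∀ e, V (st e)) ∧
    (∀ e, ¬ pc e → Q.ht (st e) < Q.ht S ∧ Q.n (st e) = Q.n S ∧ Q.H (st e) ≤ Q.H S - 1) ∧
    (∀ e, pc e → Q.ht (st e) ≤ Q.ht S ∧ Q.n (st e) = Q.n S + 1 ∧
      Q.H (st e) ≤ Q.H S + (Dl e + s e) ∧ Q.X (st e) ≤ P.c * P.D + Q.H (st e) ∧
      1 ≤ Dl e ∧ 0 ≤ s e ∧
      P.W * (1 + 2 * (P.c + 8) * Dl e ^ 2 + 2 * (P.c + 8) * P.s0 ^ 2) ≤ g e) ∧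
    ∑ e, Q.M (st e) ≤ Q.M S ∧
    ∑ e with pc e, Q.M (st e) * (2:ℝ) ^ (s e / 2) ≤ 2 * Q.M S ∧
    ∑ e, Q.M (st e) * Q.X (st e) ≤ Q.M S * (Q.X S + P.err) -
      ∑ e with pc e, Q.M (st e) * g e ∧
    ∑ e, Q.M (st e) * Q.I (st e) ≤ Q.M S * (Q.I S - Iex) + P.kap * ∑ e with pc e, Q.M (st e) ∧
    Q.gain S ≤ ∑ e, Q.gain (st e) + Q.M S * (P.CE * (P.W + P.lam0 * Iex))

/-- `V` = valid (alive) states -/
structure StOk {St : Type*} (Q : StData St) (P : Par) (V : St → Prop) : Prop where
  M0 : ∀ S, V S → 0 ≤ Q.M S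
  X0 : ∀ S, V S → 0 ≤ Q.X S
  I0 : ∀ S, V S → 0 ≤ Q.I S
  H1 : ∀ S, V S → 1 ≤ Q.H S
  /-- trivial bound (Lemma E without types) -/
  triv : ∀ S, V S → (P.q ≤ Q.n S ∨ P.l ^ 2 ≤ Q.H S) → Q.gain S ≤ P.C0 * P.D * Q.M S * Q.H S
  step : ∀ S, V S → Q.n S < P.q → Q.H S < P.l ^ 2 → EpochOk Q P V S

/-- **Bellman induction (H7).** -/
theorem bellman {St : Type*} (Q : StData St) (P : Par) (V : St → Prop) (hP : P.Ok)
    (h : StOk Q P V) (C1 : ℝ) (hC1 : 2 * P.CE ≤ C1) (hC1' : 10 * P.C0 ≤ C1) :
    ∀ S, V S → Q.gain S ≤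
      C1 * (Q.M S * Phi P.lam P.W P.l (Q.X S) (Q.I S) (Q.H S) (Q.n S)) := by
  have hW : 0 < P.W := lt_of_lt_of_le one_pos hP.W1
  have hl : 0 < P.l := lt_of_lt_of_le one_pos hP.l1
  have hC0 : 0 ≤ C1 := by linarith [hP.CE0]
  have main : ∀ k : ℕ, ∀ S, V S → Q.ht S * (P.q + 1) + (P.q - Q.n S) < k → Q.gain S ≤
      C1 * (Q.M S * Phi P.lam P.W P.l (Q.X S) (Q.I S) (Q.H S) (Q.n S)) := by
    intro k
    induction k with
    | zero => intro S _ hk; omega
    | succ k ih =>
      intro S hV hk
      have hM := h.M0 S hV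
      have hX := h.X0 S hV
      have hI := h.I0 S hV
      have hH := h.H1 S hV
      by_cases hterm : P.q ≤ Q.n S ∨ P.l ^ 2 ≤ Q.H S
      · -- terminal
        have h1 := h.triv S hV hterm
        have hD := hP.D1
        have key : P.C0 * P.D * Q.H S ≤
            C1 * Phi P.lam P.W P.l (Q.X S) (Q.I S) (Q.H S) (Q.n S) := by
          have hH0 : 0 ≤ Q.H S := by linarith
          have hWl : P.W * P.l = P.A * P.D := by unfold Par.W; field_simp
          by_cases hc : P.l ^ 2 ≤ Q.H S
          · -- W H^2 / l ≥ D H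
            have a1 : P.D * Q.H S ≤ P.W * (Q.H S ^ 2 / P.l) := by
              have : P.W * (Q.H S ^ 2 / P.l) = (P.W * P.l) * Q.H S * (Q.H S / P.l ^ 2) := by
                field_simp
              rw [this, hWl]
              have b1 : 1 ≤ Q.H S / P.l ^ 2 := by
                rw [le_div_iff₀ (by positivity)]; linarith
              have b2 : P.D * Q.H S ≤ P.A * P.D * Q.H S := by
                have : P.D * Q.H S ≤ P.A * (P.D * Q.H S) :=
                  le_mul_of_one_le_left (by positivity) hP.A1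
                linarith
              have b3 : 0 ≤ P.A * P.D * Q.H S := by linarith [mul_nonneg hD.le hH0]
              calc P.D * Q.H S ≤ P.A * P.D * Q.H S := b2
                _ = P.A * P.D * Q.H S * 1 := by ring
                _ ≤ _ := mul_le_mul_of_nonneg_left b1 b3
            have a2 : P.D * Q.H S ≤ Phi P.lam P.W P.l (Q.X S) (Q.I S) (Q.H S) (Q.n S) := by
              unfold Phi
              have c1 : 0 ≤ Q.X S * (1 + Q.H S / P.l) := by positivity
              have c2 : 0 ≤ P.lam * Q.I S := mul_nonneg hP.lam0 hI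
              have c3 : 0 ≤ P.W / 10 * (Q.n S : ℝ) := by positivity
              have c4 : 0 ≤ P.W * Q.H S := by positivity
              linarith
            have a3 : P.C0 * P.D * Q.H S = P.C0 * (P.D * Q.H S) := by ring
            rw [a3]
            have a4 : P.C0 ≤ C1 := by linarith [hP.C00]
            exact mul_le_mul a4 a2 (by positivity) hC0
          · have hq : P.q ≤ Q.n S := by
              rcases hterm with h1 | h1
              · exact h1
              · exact absurd h1 hc
            push Not at hc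
            have hqn : (P.l) ^ 3 ≤ (Q.n S : ℝ) := le_trans hP.q1 (by exact_mod_cast hq)
            have a1 : P.D * Q.H S / 10 ≤ P.W / 10 * (Q.n S : ℝ) := by
              have b1 : P.W / 10 * P.l ^ 3 ≤ P.W / 10 * (Q.n S : ℝ) :=
                mul_le_mul_of_nonneg_left hqn (by positivity)
              have b2 : P.W / 10 * P.l ^ 3 = (P.W * P.l) * P.l ^ 2 / 10 := by ring
              have b3 : P.D * Q.H S ≤ (P.W * P.l) * P.l ^ 2 := by
                rw [hWl]
                have d1 : P.D * Q.H S ≤ P.D * P.l ^ 2 := mul_le_mul_of_nonneg_left hc.le hD.le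
                have d2 : P.D * P.l ^ 2 ≤ P.A * (P.D * P.l ^ 2) :=
                  le_mul_of_one_le_left (by positivity) hP.A1
                linarith
              linarith
            have a2 : P.D * Q.H S / 10 ≤
                Phi P.lam P.W P.l (Q.X S) (Q.I S) (Q.H S) (Q.n S) := by
              unfold Phi
              have c1 : 0 ≤ Q.X S * (1 + Q.H S / P.l) := by positivity
              have c2 : 0 ≤ P.lam * Q.I S := mul_nonneg hP.lam0 hI
              have c4 : 0 ≤ P.W * (Q.H S + Q.H S ^ 2 / P.l) := by positivity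
              linarith
            have a3 : P.C0 * P.D * Q.H S = 10 * P.C0 * (P.D * Q.H S / 10) := by ring
            rw [a3]
            exact mul_le_mul hC1' a2 (by positivity) hC0
        calc Q.gain S ≤ P.C0 * P.D * Q.M S * Q.H S := h1
          _ = Q.M S * (P.C0 * P.D * Q.H S) := by ring
          _ ≤ Q.M S * (C1 * Phi P.lam P.W P.l (Q.X S) (Q.I S) (Q.H S) (Q.n S)) :=
              mul_le_mul_of_nonneg_left key hM
          _ = _ := by ring
      · push Not at hterm
        obtain ⟨hn, hHl⟩ := hterm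
        obtain ⟨ι, _, st, pc, _, s, Dl, g, Iex, hIex, hVe, hdb, hpc, hsum, hexp, hKF, hIs, hg⟩ :=
          (h.step S hV hn hHl).ex
        have hE2 := E2 (Finset.univ : Finset ι) pc (fun e => Q.M (st e)) (fun e => Q.X (st e))
          (fun e => Q.I (st e)) (fun e => Q.H (st e)) (fun e => (Q.n (st e) : ℝ)) s Dl g
          (M := Q.M S) (X0 := Q.X S) (I0 := Q.I S) (H0 := Q.H S) (n0 := (Q.n S : ℝ)) (Iex := Iex)
          (W := P.W) (l := P.l) (D := P.D) (c := P.c) (lam := P.lam) (s0 := P.s0) (kap := P.kap)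
          (err := P.err) hP.l1 hP.W1
          (by
            have : P.W * P.l = P.A * P.D := by unfold Par.W; field_simp
            rw [this]; exact le_mul_of_one_le_left hP.D1.le hP.A1)
          hP.c0 hP.lam0 hM hH (by positivity)
          (fun e _ => h.M0 _ (hVe e)) hsum (fun e _ => h.X0 _ (hVe e))
          (fun e _ => by linarith [h.H1 _ (hVe e)])
          (fun e _ he => (hdb e he).2.2) (fun e _ he => by rw [(hdb e he).2.1])
          (fun e _ he => (hpc e he).2.2.1)
          (fun e _ he => by rw [(hpc e he).2.1]; push_cast; exact le_refl _)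
          (fun e _ he => (hpc e he).2.2.2.1) (fun e _ he => (hpc e he).2.2.2.2.1)
          (fun e _ he => (hpc e he).2.2.2.2.2.1) (fun e _ he => (hpc e he).2.2.2.2.2.2)
          hKF hIs hP.kap1 hP.err1
          (tail_of_exp Finset.univ pc (fun e => Q.M (st e)) s
            (fun e _ => h.M0 _ (hVe e)) hP.hs0 hexp)
        have hIH : ∑ e, Q.gain (st e) ≤ ∑ e, C1 * (Q.M (st e) *
            Phi P.lam P.W P.l (Q.X (st e)) (Q.I (st e)) (Q.H (st e)) (Q.n (st e))) := by
          apply Finset.sum_le_sum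
          intro e _
          apply ih (st e) (hVe e)
          by_cases he : pc e
          · obtain ⟨h1, h2, -⟩ := hpc e he
            have h3 : Q.ht (st e) * (P.q + 1) ≤ Q.ht S * (P.q + 1) :=
              Nat.mul_le_mul_right _ h1
            omega
          · obtain ⟨h1, h2, -⟩ := hdb e he
            have h3 : (Q.ht (st e) + 1) * (P.q + 1) ≤ Q.ht S * (P.q + 1) :=
              Nat.mul_le_mul_right _ h1
            have h4 : (Q.ht (st e) + 1) * (P.q + 1) = Q.ht (st e) * (P.q + 1) + (P.q + 1) := by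
              ring
            omega
        rw [← Finset.mul_sum] at hIH
        have hE3 := mul_le_mul_of_nonneg_left hE2 hC0
        have h9 : P.CE * (P.W + P.lam0 * Iex) ≤ C1 * (P.lam * Iex + P.W / 2) := by
          have b1 : P.CE * P.W ≤ C1 * (P.W / 2) := by
            have : P.CE * P.W = 2 * P.CE * (P.W / 2) := by ring
            rw [this]; exact mul_le_mul_of_nonneg_right hC1 (by positivity)
          have b2 : P.CE * (P.lam0 * Iex) ≤ C1 * (P.lam * Iex) := by
            apply mul_le_mul (by linarith [hP.CE0]) _ (mul_nonneg hP.lam00 hIex) hC0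
            exact mul_le_mul_of_nonneg_right hP.lam1 hIex
          linarith
        have h10 := mul_le_mul_of_nonneg_left h9 hM
        have e1 : C1 * (Q.M S * (Phi P.lam P.W P.l (Q.X S) (Q.I S) (Q.H S) (Q.n S) -
            P.lam * Iex - P.W / 2)) =
            C1 * (Q.M S * Phi P.lam P.W P.l (Q.X S) (Q.I S) (Q.H S) (Q.n S)) -
            Q.M S * (C1 * (P.lam * Iex + P.W / 2)) := by ring
        rw [e1] at hE3
        linarith
  intro S hV
  exact main _ S hV (Nat.lt_succ_self _)

end Vale.Agent.P091.T.H17
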