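import Vale.Agent.P091.T.H17.Arith

/-! # P091, heart, row BELL: the Bellman induction with three kinds of exits

`M` mass, `X = K - F + c0 ≥ 0`, `H ≥ 1` number of doublings left, `n` number of units; unit of
payment `W = D / l`.  Kinds of exits: `0` doubling, `1` piece, `2` sparse. -/

set_option autoImplicit false

open Finset

namespace Vale.Agent.P091.T.H17

/-- the potential -/
noncomputable def Psi (W l X H n : ℝ) : ℝ := X * (1 + H / l) + W * (H + H ^ 2 / l) + W / 10 * n

theorem Psi_nonneg {W l X H n : ℝ} (hW : 0 ≤ W) (hl : 0 ≤ l) (hX : 0 ≤ X)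
    (hH : 0 ≤ H) (hn : 0 ≤ n) : 0 ≤ Psi W l X H n := by
  unfold Psi; positivity

/-- one exit with a gain `del` of doublings -/
theorem up_bound {W l D c H0 He Xe del : ℝ} (hl : 1 ≤ l) (hW : 1 ≤ W)
    (hD : D ≤ W * l) (hc : 0 ≤ c) (hH0 : 0 ≤ H0) (hHe : 0 ≤ He) (hdel1 : 1 ≤ del)
    (hH : He ≤ H0 + del) (hXe : 0 ≤ Xe) (hX : Xe ≤ c * D + He) :
    Xe * (1 + He / l) + W * (He + He ^ 2 / l) + W / 10 ≤
      Xe * (1 + H0 / l) + W * (H0 + H0 ^ 2 / l) + W * (1 + H0 / l) * ((c + 8) * del ^ 2) := by
  have hl0 : 0 < l := by linarith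
  have hr0 : 0 ≤ H0 / l := div_nonneg hH0 hl0.le
  have h7 := alg1 (W := W) (c := c) (r := H0 / l) (del := del) (lk := 0) hW hc hr0 hdel1
    (by linarith)
  have hHl : He / l ≤ H0 / l + del / l := by
    rw [← add_div]; exact div_le_div_of_nonneg_right hH hl0.le
  have hdl : del / l ≤ del := div_le_self (by linarith) hl
  have h1 : Xe * (1 + He / l) ≤ Xe * (1 + H0 / l) + Xe * (del / l) := by
    have := mul_le_mul_of_nonneg_left hHl hXe
    have e : Xe * (H0 / l + del / l) = Xe * (H0 / l) + Xe * (del / l) := by ring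
    rw [e] at this
    linarith
  have hDl' : D / l ≤ W := by rw [div_le_iff₀ hl0]; exact hD
  have hXl : Xe / l ≤ c * W + H0 / l + del := by
    have h0 : Xe / l ≤ (c * D + (H0 + del)) / l :=
      div_le_div_of_nonneg_right (by linarith) hl0.le
    have e : (c * D + (H0 + del)) / l = c * (D / l) + H0 / l + del / l := by
      field_simp; ring
    have h3 : c * (D / l) ≤ c * W := mul_le_mul_of_nonneg_left hDl' hc
    linarith
  have h2 : Xe * (del / l) ≤ (c * W + H0 / l + del) * del := by
    have e : Xe * (del / l) = Xe / l * del := by ring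
    rw [e]; exact mul_le_mul_of_nonneg_right hXl (by linarith)
  have h3 : He + He ^ 2 / l ≤ H0 + del + (H0 + del) ^ 2 / l := by
    have h0 : He ^ 2 ≤ (H0 + del) ^ 2 := pow_le_pow_left₀ hHe hH 2
    have := div_le_div_of_nonneg_right h0 hl0.le
    linarith
  have h4 : (H0 + del) ^ 2 / l = H0 ^ 2 / l + 2 * (H0 / l) * del + del ^ 2 / l := by
    field_simp; ring
  have h5 : del ^ 2 / l ≤ del ^ 2 := div_le_self (by positivity) hl
  have h6 : W * (He + He ^ 2 / l) ≤
      W * (H0 + H0 ^ 2 / l) + W * (del + 2 * (H0 / l) * del + del ^ 2) := by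
    have h0 : He + He ^ 2 / l ≤ H0 + H0 ^ 2 / l + (del + 2 * (H0 / l) * del + del ^ 2) := by
      linarith
    have h := mul_le_mul_of_nonneg_left h0 (by linarith : (0:ℝ) ≤ W)
    have e : W * (H0 + H0 ^ 2 / l + (del + 2 * (H0 / l) * del + del ^ 2)) =
      W * (H0 + H0 ^ 2 / l) + W * (del + 2 * (H0 / l) * del + del ^ 2) := by ring
    rw [e] at h
    exact h
  linarith

/-- **(E2)** with three kinds of exits. -/
theorem E2b {ι : Type*} (E : Finset ι) (kd : ι → Fin 3)
    (m X H n s g : ι → ℝ)
    {M X0 H0 n0 W l D c err : ℝ}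
    (hl : 1 ≤ l) (hW : 1 ≤ W) (hD : D ≤ W * l) (hc : 0 ≤ c)
    (hM : 0 ≤ M) (hH0 : 1 ≤ H0) (hn0 : 0 ≤ n0)
    (hm : ∀ e ∈ E, 0 ≤ m e) (hsum : ∑ e ∈ E, m e ≤ M)
    (hX : ∀ e ∈ E, 0 ≤ X e) (hH : ∀ e ∈ E, 0 ≤ H e)
    (hdH : ∀ e ∈ E, kd e = 0 → H e ≤ H0 - 1)
    (hpH : ∀ e ∈ E, kd e ≠ 0 → H e ≤ H0 + s e)
    (hpX : ∀ e ∈ E, kd e ≠ 0 → X e ≤ c * D + H e)
    (hps : ∀ e ∈ E, kd e ≠ 0 → 1 ≤ s e)
    (hn : ∀ e ∈ E, kd e ≠ 1 → n e ≤ n0) (hpn : ∀ e ∈ E, kd e = 1 → n e ≤ n0 + 1)
    (hpg : ∀ e ∈ E, kd e = 1 → W * (1 + (c + 8) * s e ^ 2) ≤ g e)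
    (hKF : ∑ e ∈ E, m e * X e ≤ M * (X0 + err) - ∑ e ∈ E with kd e = 1, m e * g e)
    (herr : err ≤ W / 4)
    (htail : ∑ e ∈ E with kd e = 2, m e * ((c + 8) * s e ^ 2) ≤ M / 8) :
    ∑ e ∈ E, m e * Psi W l (X e) (H e) (n e) ≤ M * (Psi W l X0 H0 n0 - W / 2) := by
  classical
  have hl0 : 0 < l := by linarith
  set r : ℝ := H0 / l with hr
  have hr0 : 0 ≤ r := by positivity
  have key : ∀ e ∈ E, m e * Psi W l (X e) (H e) (n e) ≤
      (1 + r) * (m e * X e) + (W * (H0 + H0 ^ 2 / l) + W / 10 * n0 - W * (1 + r)) * m e +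
        ((if kd e = 1 then (1 + r) * (m e * g e) else 0) +
          (if kd e = 2 then W * (1 + r) * (m e * ((c + 8) * s e ^ 2)) + W * (1 + r) * m e
            else 0)) := by
    intro e he
    have hme := hm e he
    have hXe := hX e he
    have hHe := hH e he
    by_cases h0 : kd e = 0
    · have h1 := hdH e he h0
      have h2 := hn e he (by rw [h0]; decide)
      have h3 : X e * (1 + H e / l) ≤ X e * (1 + r) := by
        apply mul_le_mul_of_nonneg_left _ hXe
        have : H e / l ≤ r := by
          rw [hr]; exact div_le_div_of_nonneg_right (by linarith) hl0.le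
        linarith
      have h4 : H e + H e ^ 2 / l ≤ H0 + H0 ^ 2 / l - (1 + r) := by
        have a : H e ^ 2 ≤ (H0 - 1) ^ 2 := by nlinarith
        have b : H e ^ 2 / l ≤ (H0 - 1) ^ 2 / l := div_le_div_of_nonneg_right a hl0.le
        have cc : (H0 - 1) ^ 2 / l ≤ H0 ^ 2 / l - r := by
          have : (H0 - 1) ^ 2 / l = H0 ^ 2 / l - r - (H0 - 1) / l := by
            rw [hr, ← sub_div, ← sub_div]; congr 1; ring
          have h0 : 0 ≤ (H0 - 1) / l := by
            apply div_nonneg _ hl0.le; linarith
          linarith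
        linarith
      have h5 : W * (H e + H e ^ 2 / l) ≤ W * (H0 + H0 ^ 2 / l - (1 + r)) :=
        mul_le_mul_of_nonneg_left h4 (by linarith)
      have h6 : W / 10 * n e ≤ W / 10 * n0 := mul_le_mul_of_nonneg_left h2 (by linarith)
      have hb' : Psi W l (X e) (H e) (n e) ≤
          (1 + r) * X e + (W * (H0 + H0 ^ 2 / l) + W / 10 * n0 - W * (1 + r)) := by
        unfold Psi; linarith
      have := mul_le_mul_of_nonneg_left hb' hme
      have e1 : ¬ kd e = 1 := by rw [h0]; decide
      have e2 : ¬ kd e = 2 := by rw [h0]; decide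
      simp only [e1, e2, if_false]
      linarith
    · have hb := up_bound (W := W) (l := l) (D := D) (c := c) (H0 := H0) (He := H e)
        (Xe := X e) (del := s e) hl hW hD hc (by linarith) hHe (hps e he h0)
        (hpH e he h0) hXe (hpX e he h0)
      rw [← hr] at hb
      have hs1 := hps e he h0
      by_cases h1 : kd e = 1
      · have hn' := hpn e he h1
        have hn2 : W / 10 * n e ≤ W / 10 * (n0 + 1) :=
          mul_le_mul_of_nonneg_left hn' (by linarith)
        have hg := hpg e he h1
        have hg2 : W * (1 + (c + 8) * s e ^ 2) * (1 + r) ≤ g e * (1 + r) :=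
          mul_le_mul_of_nonneg_right hg (by linarith)
        have hb' : Psi W l (X e) (H e) (n e) ≤
            (1 + r) * X e + (W * (H0 + H0 ^ 2 / l) + W / 10 * n0 - W * (1 + r)) +
              (1 + r) * g e := by
          unfold Psi
          have e3 : W * (1 + (c + 8) * s e ^ 2) * (1 + r) =
            W * (1 + r) + W * (1 + r) * ((c + 8) * s e ^ 2) := by ring
          rw [e3] at hg2
          linarith
        have := mul_le_mul_of_nonneg_left hb' hme
        have e2 : ¬ kd e = 2 := by rw [h1]; decide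
        simp only [h1, if_true]
        have e4 : (if (1 : Fin 3) = 2 then W * (1 + r) * (m e * ((c + 8) * s e ^ 2)) +
          W * (1 + r) * m e else 0) = 0 := if_neg (by decide)
        rw [e4]
        linarith
      · have h2 : kd e = 2 := by
          have : ∀ k : Fin 3, k ≠ 0 → k ≠ 1 → k = 2 := by decide
          exact this _ h0 h1
        have hn' := hn e he h1
        have hn2 : W / 10 * n e ≤ W / 10 * n0 := mul_le_mul_of_nonneg_left hn' (by linarith)
        have hb' : Psi W l (X e) (H e) (n e) ≤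
            (1 + r) * X e + (W * (H0 + H0 ^ 2 / l) + W / 10 * n0) +
              W * (1 + r) * ((c + 8) * s e ^ 2) := by
          unfold Psi
          linarith
        have := mul_le_mul_of_nonneg_left hb' hme
        simp only [h2, if_true]
        have e4 : (if (2 : Fin 3) = 1 then (1 + r) * (m e * g e) else 0) = 0 :=
          if_neg (by decide)
        rw [e4]
        linarith
  -- the masses of the sparse exits are tiny
  have hsp : ∑ e ∈ E with kd e = 2, m e ≤ ∑ e ∈ E with kd e = 2, m e * ((c + 8) * s e ^ 2) / 8 := by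
    apply Finset.sum_le_sum
    intro e he
    rw [Finset.mem_filter] at he
    have h1 := hps e he.1 (by rw [he.2]; decide)
    have h2 := hm e he.1
    have h3 : 1 ≤ s e ^ 2 := by nlinarith
    have h4 : 8 ≤ (c + 8) * s e ^ 2 := by nlinarith
    have := mul_le_mul_of_nonneg_left h4 h2
    linarith
  rw [← Finset.sum_div] at hsp
  have hs1 := Finset.sum_le_sum key
  simp only [Finset.sum_add_distrib, ← Finset.mul_sum] at hs1
  rw [← Finset.sum_filter, ← Finset.sum_filter] at hs1
  simp only [Finset.sum_add_distrib, ← Finset.mul_sum] at hs1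
  set SX := ∑ e ∈ E, m e * X e
  set Sm := ∑ e ∈ E, m e
  set Sg := ∑ e ∈ E with kd e = 1, m e * g e
  set Sp := ∑ e ∈ E with kd e = 2, m e
  set ST := ∑ e ∈ E with kd e = 2, m e * ((c + 8) * s e ^ 2)
  have c1 : (1 + r) * SX ≤ (1 + r) * (M * (X0 + err) - Sg) :=
    mul_le_mul_of_nonneg_left hKF (by linarith)
  have c3 : (W * (H0 + H0 ^ 2 / l) + W / 10 * n0 - W * (1 + r)) * Sm ≤
      (W * (H0 + H0 ^ 2 / l) + W / 10 * n0 - W * (1 + r)) * M := by
    apply mul_le_mul_of_nonneg_left hsum
    have : 1 + r ≤ H0 + H0 ^ 2 / l := by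
      have : r ≤ H0 ^ 2 / l := by
        rw [hr]; exact div_le_div_of_nonneg_right (by nlinarith) hl0.le
      linarith
    have h1 : W * (1 + r) ≤ W * (H0 + H0 ^ 2 / l) := mul_le_mul_of_nonneg_left this (by linarith)
    have h2 : 0 ≤ W / 10 * n0 := by positivity
    linarith
  have hWr : 0 ≤ W * (1 + r) := by positivity
  have c4 : W * (1 + r) * (ST + Sp) ≤ W * (1 + r) * (M / 8 + M / 64) :=
    mul_le_mul_of_nonneg_left (by linarith) hWr
  have c5 : (1 + r) * (M * err) ≤ (1 + r) * (M * (W / 4)) := by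
    apply mul_le_mul_of_nonneg_left _ (by linarith)
    exact mul_le_mul_of_nonneg_left herr hM
  have e1 : Psi W l X0 H0 n0 = X0 * (1 + r) + W * (H0 + H0 ^ 2 / l) + W / 10 * n0 := by
    unfold Psi; rw [hr]
  rw [e1]
  have f1 : (1 + r) * (M * (X0 + err) - Sg) = M * (X0 * (1 + r)) + (1 + r) * (M * err) -
      (1 + r) * Sg := by ring
  have f3 : (W * (H0 + H0 ^ 2 / l) + W / 10 * n0 - W * (1 + r)) * M =
      M * (W * (H0 + H0 ^ 2 / l)) + M * (W / 10 * n0) - M * W - M * W * r := by ring
  have f4 : W * (1 + r) * (M / 8 + M / 64) = 9 / 64 * (M * W) + 9 / 64 * (M * W * r) := by ring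
  have f5 : (1 + r) * (M * (W / 4)) = M * W / 4 + M * W * r / 4 := by ring
  have f6 : M * (X0 * (1 + r) + W * (H0 + H0 ^ 2 / l) + W / 10 * n0 -
      W / 2) = M * (X0 * (1 + r)) + M * (W * (H0 + H0 ^ 2 / l)) +
      M * (W / 10 * n0) - M * W / 2 := by ring
  have f7 : W * (1 + r) * (ST + Sp) = W * (1 + r) * ST + W * (1 + r) * Sp := by ring
  have c6 : 0 ≤ M * W * r := by positivity
  have c7 : 0 ≤ M * W := by positivity
  rw [f1] at c1; rw [f3] at c3; rw [f4, f7] at c4; rw [f5] at c5; rw [f6]
  linarith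

/-- The exits of one epoch. -/
structure EpochB {St : Type*} (gain M X H : St → ℝ) (nn ht : St → ℕ) (V : St → Prop)
    (W c D err CE : ℝ) (S : St) : Prop where
  ex : ∃ (ι : Type) (_ : Fintype ι) (st : ι → St) (kd : ι → Fin 3) (s g : ι → ℝ),
    (∀ e, V (st e)) ∧
    (∀ e, kd e = 0 → ht (st e) < ht S ∧ nn (st e) = nn S ∧ H (st e) ≤ H S - 1) ∧
    (∀ e, kd e = 1 → ht (st e) ≤ ht S ∧ nn (st e) = nn S + 1 ∧
      W * (1 + (c + 8) * s e ^ 2) ≤ g e) ∧
    (∀ e, kd e = 2 → ht (st e) < ht S ∧ nn (st e) = nn S) ∧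
    (∀ e, kd e ≠ 0 → H (st e) ≤ H S + s e ∧ X (st e) ≤ c * D + H (st e) ∧ 1 ≤ s e) ∧
    ∑ e, M (st e) ≤ M S ∧
    ∑ e with kd e = 2, M (st e) * ((c + 8) * s e ^ 2) ≤ M S / 8 ∧
    ∑ e, M (st e) * X (st e) ≤ M S * (X S + err) - ∑ e with kd e = 1, M (st e) * g e ∧
    gain S ≤ ∑ e, gain (st e) + M S * (CE * W)

/-- **Bellman induction.** -/
theorem bellmanB {St : Type*} (gain M X H : St → ℝ) (nn ht : St → ℕ) (V : St → Prop)
    {W l c D err CE C0 : ℝ} {q : ℕ}
    (hl : 1 ≤ l) (hW : 1 ≤ W) (hD0 : 0 < D) (hWD : W = D / l) (hc : 0 ≤ c) (hCE : 0 ≤ CE)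
    (hC0 : 0 ≤ C0) (hq : l ^ 3 ≤ q) (herr : err ≤ W / 4)
    (hM : ∀ S, V S → 0 ≤ M S) (hX : ∀ S, V S → 0 ≤ X S) (hH : ∀ S, V S → 1 ≤ H S)
    (htriv : ∀ S, V S → (q ≤ nn S ∨ l ^ 2 ≤ H S) → gain S ≤ C0 * D * M S * H S)
    (hstep : ∀ S, V S → nn S < q → H S < l ^ 2 → EpochB gain M X H nn ht V W c D err CE S)
    (C1 : ℝ) (hC1 : 2 * CE ≤ C1) (hC1' : 10 * C0 ≤ C1) :
    ∀ S, V S → gain S ≤ C1 * (M S * Psi W l (X S) (H S) (nn S)) := by
  have hW0 : 0 < W := by linarith
  have hl0 : 0 < l := by linarith
  have hC10 : 0 ≤ C1 := by linarith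
  have hWl : W * l = D := by rw [hWD]; field_simp
  have main : ∀ k : ℕ, ∀ S, V S → ht S * (q + 1) + (q - nn S) < k → gain S ≤
      C1 * (M S * Psi W l (X S) (H S) (nn S)) := by
    intro k
    induction k with
    | zero => intro S _ hk; omega
    | succ k ih =>
      intro S hV hk
      have hMS := hM S hV
      have hXS := hX S hV
      have hHS := hH S hV
      by_cases hterm : q ≤ nn S ∨ l ^ 2 ≤ H S
      · -- terminal
        have h1 := htriv S hV hterm
        have key : C0 * D * H S ≤ C1 * Psi W l (X S) (H S) (nn S) := by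
          have hH0 : 0 ≤ H S := by linarith
          by_cases hc' : l ^ 2 ≤ H S
          · have a1 : D * H S ≤ W * (H S ^ 2 / l) := by
              have : W * (H S ^ 2 / l) = (W * l) * H S * (H S / l ^ 2) := by
                field_simp
              rw [this, hWl]
              have b1 : 1 ≤ H S / l ^ 2 := by
                rw [le_div_iff₀ (by positivity)]; linarith
              have b3 : 0 ≤ D * H S := by positivity
              calc D * H S = D * H S * 1 := by ring
                _ ≤ _ := mul_le_mul_of_nonneg_left b1 b3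
            have a2 : D * H S ≤ Psi W l (X S) (H S) (nn S) := by
              unfold Psi
              have c1 : 0 ≤ X S * (1 + H S / l) := by positivity
              have c3 : 0 ≤ W / 10 * (nn S : ℝ) := by positivity
              have c4 : 0 ≤ W * H S := by positivity
              linarith
            have a3 : C0 * D * H S = C0 * (D * H S) := by ring
            rw [a3]
            exact mul_le_mul (by linarith) a2 (by positivity) hC10
          · have hq' : q ≤ nn S := by
              rcases hterm with h1 | h1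
              · exact h1
              · exact absurd h1 hc'
            push Not at hc'
            have hqn : l ^ 3 ≤ (nn S : ℝ) := le_trans hq (by exact_mod_cast hq')
            have a1 : D * H S / 10 ≤ W / 10 * (nn S : ℝ) := by
              have b1 : W / 10 * l ^ 3 ≤ W / 10 * (nn S : ℝ) :=
                mul_le_mul_of_nonneg_left hqn (by positivity)
              have b2 : W / 10 * l ^ 3 = (W * l) * l ^ 2 / 10 := by ring
              have b3 : D * H S ≤ (W * l) * l ^ 2 := by
                rw [hWl]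
                exact mul_le_mul_of_nonneg_left hc'.le hD0.le
              linarith
            have a2 : D * H S / 10 ≤ Psi W l (X S) (H S) (nn S) := by
              unfold Psi
              have c1 : 0 ≤ X S * (1 + H S / l) := by positivity
              have c4 : 0 ≤ W * (H S + H S ^ 2 / l) := by positivity
              linarith
            have a3 : C0 * D * H S = 10 * C0 * (D * H S / 10) := by ring
            rw [a3]
            exact mul_le_mul hC1' a2 (by positivity) hC10
        calc gain S ≤ C0 * D * M S * H S := h1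
          _ = M S * (C0 * D * H S) := by ring
          _ ≤ M S * (C1 * Psi W l (X S) (H S) (nn S)) :=
              mul_le_mul_of_nonneg_left key hMS
          _ = _ := by ring
      · push Not at hterm
        obtain ⟨hn, hHl⟩ := hterm
        obtain ⟨ι, _, st, kd, s, g, hVe, h0, h1, h2, h12, hsum, htail, hKF, hg⟩ :=
          (hstep S hV hn hHl).ex
        have hkd : ∀ k : Fin 3, k = 0 ∨ k = 1 ∨ k = 2 := by decide
        have hE2 := E2b (Finset.univ : Finset ι) kd (fun e => M (st e)) (fun e => X (st e))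
          (fun e => H (st e)) (fun e => (nn (st e) : ℝ)) s g
          (M := M S) (X0 := X S) (H0 := H S) (n0 := (nn S : ℝ))
          (W := W) (l := l) (D := D) (c := c) (err := err) hl hW hWl.ge hc hMS hHS
          (by positivity)
          (fun e _ => hM _ (hVe e)) hsum (fun e _ => hX _ (hVe e))
          (fun e _ => by linarith [hH _ (hVe e)])
          (fun e _ he => (h0 e he).2.2)
          (fun e _ he => (h12 e he).1) (fun e _ he => (h12 e he).2.1)
          (fun e _ he => (h12 e he).2.2)
          (fun e _ he => by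
            rcases hkd (kd e) with h | h | h
            · rw [(h0 e h).2.1]
            · exact absurd h he
            · rw [(h2 e h).2])
          (fun e _ he => by rw [(h1 e he).2.1]; push_cast; exact le_refl _)
          (fun e _ he => (h1 e he).2.2) hKF herr htail
        have hIH : ∑ e, gain (st e) ≤ ∑ e, C1 * (M (st e) *
            Psi W l (X (st e)) (H (st e)) (nn (st e))) := by
          apply Finset.sum_le_sum
          intro e _
          apply ih (st e) (hVe e)
          have hlt : ht (st e) < ht S → nn (st e) = nn S →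
              ht (st e) * (q + 1) + (q - nn (st e)) < k := by
            intro ha hb
            have h3 : (ht (st e) + 1) * (q + 1) ≤ ht S * (q + 1) :=
              Nat.mul_le_mul_right _ ha
            have h4 : (ht (st e) + 1) * (q + 1) = ht (st e) * (q + 1) + (q + 1) := by ring
            omega
          rcases hkd (kd e) with h | h | h
          · exact hlt (h0 e h).1 (h0 e h).2.1
          · obtain ⟨ha, hb, -⟩ := h1 e h
            have h3 : ht (st e) * (q + 1) ≤ ht S * (q + 1) := Nat.mul_le_mul_right _ ha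
            omega
          · exact hlt (h2 e h).1 (h2 e h).2
        rw [← Finset.mul_sum] at hIH
        have hE3 := mul_le_mul_of_nonneg_left hE2 hC10
        have h9 : CE * W ≤ C1 * (W / 2) := by
          have : CE * W = 2 * CE * (W / 2) := by ring
          rw [this]; exact mul_le_mul_of_nonneg_right hC1 (by positivity)
        have h10 := mul_le_mul_of_nonneg_left h9 hMS
        have e1 : C1 * (M S * (Psi W l (X S) (H S) (nn S) - W / 2)) =
            C1 * (M S * Psi W l (X S) (H S) (nn S)) - M S * (C1 * (W / 2)) := by ring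
        rw [e1] at hE3
        linarith
  intro S hV
  exact main _ S hV (Nat.lt_succ_self _)

end Vale.Agent.P091.T.H17
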