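import Vale.Agent.P091.T.Defs

/-! # P091, heart, row BELL: the tree of an epoch (H8)

An epoch below the node `(j, a)` with the set `W` of leaves is described by a finite tree `Ep`:
`stop` the process leaves the epoch with its whole set, `cut b Y r` the piece `Y` leaves (label
`b`), then `r` with the rest `W \ Y` at the same node, `desc l r` the process goes down to the two
children (`l` at `(j+1, 2a)`, `r` at `(j+1, 2a+1)`).

* `exits` : the list of exits; `dep` : the sets on departure; `Fits` : the plan obeys the rules.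
-/

set_option autoImplicit false

open Finset
open Vale.Agent.P091.Spec

noncomputable section

namespace Vale.Agent.P091.T.H17

/-- the plan of an epoch -/
inductive Ep (β : Type) : Type
  | stop : Ep β
  | cut (b : β) (Y : Finset ℕ) (r : Ep β) : Ep β
  | desc (l r : Ep β) : Ep β

/-- an exit: at the node `(j, a)` the set `Y` leaves, `Z` = the set which was present just before;
`b = some _` for a piece (`cut`), `b = none` for a `stop` (then `Y = Z`). -/
structure Rec (β : Type) where
  j : ℕ
  a : ℕ
  Z : Finset ℕ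
  Y : Finset ℕ
  b : Option β

variable {β : Type} (n : ℕ)

/-- the exits of the plan, run at `(j, a)` with the set `W` -/
def exits : Ep β → ℕ → ℕ → Finset ℕ → List (Rec β)
  | .stop, j, a, W => [⟨j, a, W, W, none⟩]
  | .cut b Y r, j, a, W => ⟨j, a, W, Y, some b⟩ :: exits r j a (W \ Y)
  | .desc l r, j, a, W => exits l (j + 1) (2 * a) (W ∩ nd n (j + 1) (2 * a)) ++
      exits r (j + 1) (2 * a + 1) (W ∩ nd n (j + 1) (2 * a + 1))

/-- the set on departure from the node `(j', a')` below `(j, a)`, empty if the process does not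
leave `(j', a')` downwards -/
def dep : Ep β → ℕ → ℕ → Finset ℕ → ℕ → ℕ → Finset ℕ
  | .stop, _, _, _, _, _ => ∅
  | .cut _ Y r, j, a, W, j', a' => dep r j a (W \ Y) j' a'
  | .desc l r, j, a, W, j', a' =>
      if j' ≤ j then (if j' = j ∧ a' = a then W else ∅)
      else if a' / 2 ^ (j' - (j + 1)) = 2 * a then
        dep l (j + 1) (2 * a) (W ∩ nd n (j + 1) (2 * a)) j' a'
      else if a' / 2 ^ (j' - (j + 1)) = 2 * a + 1 then
        dep r (j + 1) (2 * a + 1) (W ∩ nd n (j + 1) (2 * a + 1)) j' a'
      else ∅

/-- The plan obeys the rules: it stops exactly at `Stop`, it cuts only `Piece`s, and it goes down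
only if `Done`. -/
def Fits (Stop Done : ℕ → ℕ → Finset ℕ → Prop) (Piece : ℕ → ℕ → Finset ℕ → β → Finset ℕ → Prop) :
    Ep β → ℕ → ℕ → Finset ℕ → Prop
  | .stop, j, a, W => Stop j a W
  | .cut b Y r, j, a, W => ¬ Stop j a W ∧ Piece j a W b Y ∧ Y ⊆ W ∧ Y.Nonempty ∧
      Fits Stop Done Piece r j a (W \ Y)
  | .desc l r, j, a, W => ¬ Stop j a W ∧ Done j a W ∧
      Fits Stop Done Piece l (j + 1) (2 * a) (W ∩ nd n (j + 1) (2 * a)) ∧
      Fits Stop Done Piece r (j + 1) (2 * a + 1) (W ∩ nd n (j + 1) (2 * a + 1))

variable {n}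
variable {Stop Done : ℕ → ℕ → Finset ℕ → Prop} {Piece : ℕ → ℕ → Finset ℕ → β → Finset ℕ → Prop}

/-! ### nodes -/

theorem nd_succ_left (j a : ℕ) (hj : j < n) : nd n (j + 1) (2 * a) ⊆ nd n j a := by
  intro i hi
  simp only [nd, mem_Ico] at hi ⊢
  have e : 2 ^ (n - j) = 2 * 2 ^ (n - (j + 1)) := by
    rw [← pow_succ']; congr 1; omega
  rw [e]
  constructor
  · nlinarith [hi.1]
  · nlinarith [hi.2]

theorem nd_succ_right (j a : ℕ) (hj : j < n) : nd n (j + 1) (2 * a + 1) ⊆ nd n j a := by
  intro i hi
  simp only [nd, mem_Ico] at hi ⊢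
  have e : 2 ^ (n - j) = 2 * 2 ^ (n - (j + 1)) := by
    rw [← pow_succ']; congr 1; omega
  rw [e]
  constructor
  · nlinarith [hi.1]
  · nlinarith [hi.2]

theorem nd_disj (j a : ℕ) : Disjoint (nd n (j + 1) (2 * a)) (nd n (j + 1) (2 * a + 1)) := by
  rw [Finset.disjoint_left]
  intro i h1 h2
  simp only [nd, mem_Ico] at h1 h2
  omega

theorem nd_split (j a : ℕ) (hj : j < n) :
    nd n (j + 1) (2 * a) ∪ nd n (j + 1) (2 * a + 1) = nd n j a := by
  apply Finset.Subset.antisymm
  · exact Finset.union_subset (nd_succ_left j a hj) (nd_succ_right j a hj)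
  · intro i hi
    simp only [nd, mem_union, mem_Ico] at hi ⊢
    have e : 2 ^ (n - j) = 2 * 2 ^ (n - (j + 1)) := by
      rw [← pow_succ']; congr 1; omega
    rw [e] at hi
    rcases lt_or_ge i ((2 * a + 1) * 2 ^ (n - (j + 1))) with h | h
    · left; constructor
      · nlinarith [hi.1]
      · exact h
    · right; refine ⟨h, ?_⟩
      nlinarith [hi.2]

/-! ### existence -/

/-- **Existence of a plan.** -/
theorem exists_fits (hbot : ∀ j a W, n ≤ j → Stop j a W)
    (hstep : ∀ j a W, j < n → a < 2 ^ j → W ⊆ nd n j a → ¬ Stop j a W →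
      Done j a W ∨ ∃ b Y, Piece j a W b Y ∧ Y ⊆ W ∧ Y.Nonempty) :
    ∀ j a W, a < 2 ^ j → W ⊆ nd n j a → ∃ E : Ep β, Fits n Stop Done Piece E j a W := by
  classical
  have main : ∀ k c j a W, n - j ≤ k → W.card ≤ c → a < 2 ^ j → W ⊆ nd n j a →
      ∃ E : Ep β, Fits n Stop Done Piece E j a W := by
    intro k
    induction k with
    | zero =>
      intro c j a W hk _ _ _
      exact ⟨.stop, hbot j a W (by omega)⟩
    | succ k ihk =>
      intro c
      induction c with
      | zero =>
        intro j a W hk hc ha hW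
        by_cases hs : Stop j a W
        · exact ⟨.stop, hs⟩
        · have hj : j < n := by
            by_contra h; exact hs (hbot j a W (by omega))
          have hpow : 2 ^ (j + 1) = 2 * 2 ^ j := by rw [pow_succ']
          have hW0 : W = ∅ := Finset.card_eq_zero.mp (by omega)
          rcases hstep j a W hj ha hW hs with hd | ⟨b, Y, _, hY, hYne⟩
          · obtain ⟨l, hl⟩ := ihk (W ∩ nd n (j + 1) (2 * a)).card (j + 1) (2 * a) _ (by omega)
              le_rfl (by omega) Finset.inter_subset_right
            obtain ⟨r, hr⟩ := ihk (W ∩ nd n (j + 1) (2 * a + 1)).card (j + 1) (2 * a + 1) _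
              (by omega) le_rfl (by omega) Finset.inter_subset_right
            exact ⟨.desc l r, hs, hd, hl, hr⟩
          · subst hW0
            exact absurd (Finset.subset_empty.mp hY) hYne.ne_empty
      | succ c ihc =>
        intro j a W hk hc ha hW
        by_cases hs : Stop j a W
        · exact ⟨.stop, hs⟩
        · have hj : j < n := by
            by_contra h; exact hs (hbot j a W (by omega))
          have hpow : 2 ^ (j + 1) = 2 * 2 ^ j := by rw [pow_succ']
          rcases hstep j a W hj ha hW hs with hd | ⟨b, Y, hp, hY, hYne⟩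
          · obtain ⟨l, hl⟩ := ihk (W ∩ nd n (j + 1) (2 * a)).card (j + 1) (2 * a) _ (by omega)
              le_rfl (by omega) Finset.inter_subset_right
            obtain ⟨r, hr⟩ := ihk (W ∩ nd n (j + 1) (2 * a + 1)).card (j + 1) (2 * a + 1) _
              (by omega) le_rfl (by omega) Finset.inter_subset_right
            exact ⟨.desc l r, hs, hd, hl, hr⟩
          · have hcard : (W \ Y).card < W.card :=
              Finset.card_lt_card (Finset.sdiff_ssubset hY hYne)
            obtain ⟨r, hr⟩ := ihc j a (W \ Y) hk (by omega) ha (Finset.sdiff_subset.trans hW)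
            exact ⟨.cut b Y r, hs, hp, hY, hYne, hr⟩
  intro j a W ha hW
  exact main (n - j) W.card j a W le_rfl le_rfl ha hW

end Vale.Agent.P091.T.H17
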