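import Vale.Agent.P091.T.H17.Step
import Vale.Agent.P091.T.H957.Root
import Vale.Agent.P091.T.H453.BNum

/-! # P091, heart, row BELL: the induction over the states -/

set_option autoImplicit false

open Finset
open Vale.Agent.P091.Spec
open Vale.Agent.P065.Ent

noncomputable section

namespace Vale.Agent.P091.T.H17

section
variable {C1 D : ℝ} {n : ℕ} {ι : Type} [Fintype ι] (d : ZData C1 D n (bb D) ι)

/-- the root state -/
def S0 (n : ℕ) (D : ℝ) : St n (bb D) := ⟨0, 0, nd n 0 0, []⟩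

theorem dn_root : dn d 0 0 (nd n 0 0) = av n 0 0 d.p := by
  unfold dn av
  congr 1
  exact Finset.sum_congr rfl fun i hi => by unfold cut; rw [if_pos hi]

theorem V_root {c : ℝ} (hlog : 1 ≤ Real.log D) (hn : 2 ≤ n) (h0 : 0 < ∑ i ∈ nd n 0 0, d.p i) :
    sV d c (S0 n D) := by
  have h1 : dn d 0 0 (nd n 0 0) ≤ Real.log D ^ 2 := by
    rw [dn_root]
    have h1 : (1:ℝ) ≤ Real.log D ^ 2 := one_le_pow₀ hlog
    exact d.p_avg.trans h1
  have h2 : Valid d c (S0 n D) :=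
    { j_le := by simp [S0]
      a_lt := by simp [S0]
      Y_sub := by simp [S0]
      pos := h0
      alive := h1
      len := by simp [S0]
      ok := by simp [S0] }
  refine ⟨h2, ?_⟩
  simpa [S0] using hn

theorem gain_root : sgain d (S0 n D) = ‖gain d d.p 0 0‖ := by
  have h : gain d (cut d.p (nd n 0 0)) 0 0 = gain d d.p 0 0 := by
    unfold gain
    apply below_congr
    intro j' a' h1 h2 h3
    apply ng_congr d (by omega)
    intro i hi
    have h4 := nd_sub a' h1 (by omega : j' ≤ n) hi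
    rw [h3] at h4
    unfold cut
    rw [if_pos h4]
  have h' : sgain d (S0 n D) = ‖gain d (cut d.p (nd n 0 0)) 0 0‖ := rfl
  rw [h', h]

theorem gain_triv (h0 : 0 = ∑ i ∈ nd n 0 0, d.p i) : gain d d.p 0 0 = 0 := by
  have hz := (Finset.sum_eq_zero_iff_of_nonneg (fun i _ => d.p_nonneg i)).mp h0.symm
  unfold gain
  rw [below_congr (g := fun _ _ => 0), below_zero]
  intro j' a' h1 h2 h3
  apply ng_zero d (by omega)
  intro i hi
  have h4 := nd_sub a' h1 (by omega : j' ≤ n) hi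
  rw [h3] at h4
  exact hz i h4

theorem root_ok {c CB : ℝ} (hD0 : 0 < D) (hl4 : 4 ≤ (ll D : ℝ)) (hlD : (ll D : ℝ) ≤ D)
    (hlog : 1 ≤ Real.log D) (hll : 2 * Real.logb 2 (Real.log D) ≤ (ll D : ℝ) - 1)
    (hCB : 0 ≤ CB)
    (hBell : ∀ S, sV d c S → sgain d S ≤
      CB * (sM d S * Psi (D / ll D) (ll D) (sX d S) (sH d S) (snn S)))
    (hX0 : ∀ S, sV d c S → 0 ≤ sX d S) : ‖gain d d.p 0 0‖ ≤ CB * 100 * D := by
  rcases lt_or_ge n 2 with hn | hn
  · rw [gain_bot d _ _ (by omega), norm_zero]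
    positivity
  rcases (Finset.sum_nonneg fun i (_ : i ∈ nd n 0 0) => d.p_nonneg i).eq_or_lt with h0 | h0
  · rw [gain_triv d h0, norm_zero]
    positivity
  have hV0 := V_root d (c := c) hlog hn h0
  have hroot := hBell _ hV0
  have hdnpos : 0 < dn d 0 0 (nd n 0 0) := by
    rw [dn_eq d (Finset.Subset.refl _)]; exact div_pos h0 (by positivity)
  have hM0 : sM d (S0 n D) = dn d 0 0 (nd n 0 0) := by
    show ms n 0 0 (cut d.p (nd n 0 0)) = _
    rw [ms_eq_dn d (Finset.Subset.refl _) (Nat.zero_le _), pow_zero, mul_one]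
  have hn0 : ((snn (S0 n D) : ℕ) : ℝ) = 0 := by simp [snn, S0]
  have hR := H957.root_bound (m := dn d 0 0 (nd n 0 0)) (l := ll D) (D := D)
    (X := sX d (S0 n D)) (H := sH d (S0 n D)) hdnpos (by rw [dn_root]; exact d.p_avg)
    (by linarith) hlD rfl (hX0 _ hV0) (X_le d hD0 hl4 hlog hll _ hV0)
  rw [gain_root, hM0, hn0] at hroot
  have h1 := mul_le_mul_of_nonneg_left hR hCB
  linarith

theorem X_nonneg {c : ℝ}
    (hHull : ∀ (J : List (Un n (bb D))) (j a : ℕ) (Y : Finset ℕ),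
      j ≤ n → a < 2 ^ j → Y ⊆ nd n j a → (∀ i, 0 ≤ d.p i) → 0 < ∑ i ∈ Y, d.p i →
      J.length ≤ qm D → (∀ k ∈ J, k.Ok (ep c D) D Y) →
      F J j ≤ KL n j a (cut d.p Y) + D / (ll D : ℝ) ^ 10) (S : St n (bb D))
    (hS : sV d c S) : 0 ≤ sX d S := by
  have h := hHull S.J S.j S.a S.Y hS.1.j_le hS.1.a_lt hS.1.Y_sub d.p_nonneg
    hS.1.pos hS.1.len hS.1.ok
  unfold sX
  linarith

theorem triv_ok {c CT : ℝ} (hD0 : 0 < D) (hlog : 1 ≤ Real.log D)
    (hll : 2 * Real.logb 2 (Real.log D) ≤ (ll D : ℝ) - 1)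
    (hT : ∀ (q : ℕ → ℝ) (j a : ℕ), j ≤ n → a < 2 ^ j → (∀ i, 0 ≤ q i) → (∀ i, q i ≤ d.p i) →
      ‖gain d q j a‖ ≤ CT * D * (1 + max 0 (ll D - Real.logb 2 (av n j a q))) * ms n j a q)
    (S : St n (bb D)) (hS : sV d c S) :
    sgain d S ≤ 2 * max CT 0 * D * sM d S * sH d S := by
  have h := hT (cut d.p S.Y) S.j S.a hS.1.j_le hS.1.a_lt (cut_nonneg d S.Y) (cut_le d S.Y)
  have hH1 := H_ge_one d hlog hll S hS
  have e1 : max 0 ((ll D : ℝ) - Real.logb 2 (av n S.j S.a (cut d.p S.Y))) = sH d S := by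
    show max 0 (sH d S) = sH d S
    exact max_eq_right (by linarith)
  rw [e1] at h
  have hM := ms_nonneg d S.j S.a S.Y
  have hCT : CT ≤ max CT 0 := le_max_left _ _
  have hCT0 : 0 ≤ max CT 0 := le_max_right _ _
  show ‖gain d (cut d.p S.Y) S.j S.a‖ ≤
    2 * max CT 0 * D * ms n S.j S.a (cut d.p S.Y) * sH d S
  calc _ ≤ CT * D * (1 + sH d S) * ms n S.j S.a (cut d.p S.Y) := h
    _ ≤ max CT 0 * D * (1 + sH d S) * ms n S.j S.a (cut d.p S.Y) := by
        apply mul_le_mul_of_nonneg_right _ hM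
        apply mul_le_mul_of_nonneg_right _ (by linarith)
        exact mul_le_mul_of_nonneg_right hCT hD0.le
    _ ≤ max CT 0 * D * (2 * sH d S) * ms n S.j S.a (cut d.p S.Y) := by
        apply mul_le_mul_of_nonneg_right _ hM
        apply mul_le_mul_of_nonneg_left _ (by positivity)
        linarith
    _ = _ := by ring

end

/-- **Row BELL.** -/
theorem bell_of (hX : P_X) (hEP : P_EP) : P_BELL := by
  intro hcut hE1 hT hH
  obtain ⟨cu, c', hcu, hc', hcut⟩ := hcut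
  obtain ⟨t0, ht0, htail⟩ := H453.exists_t0
  obtain ⟨A, hA1, hA⟩ := H453.exists_A (t0 + |Real.logb 2 c'|)
    (by have := abs_nonneg (Real.logb 2 c'); linarith)
  intro C1 hC1
  have hs0pos : (0:ℝ) < (2:ℝ) ^ (-t0) := by positivity
  obtain ⟨D1, hcut⟩ := hcut A C1 hA1 hC1
  obtain ⟨CE, D2, hE1⟩ := hE1 ((2:ℝ) ^ (-t0)) A C1 cu hs0pos hA1 hC1 hcu
  obtain ⟨CT, D3, hT⟩ := hT C1 hC1
  obtain ⟨D4, hH⟩ := hH cu hcu
  obtain ⟨D5, hX⟩ := hX cu c' hcu hc' ((2:ℝ) ^ (-t0)) A C1 hs0pos hA1 hC1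
  obtain ⟨D6, hEP⟩ := hEP cu c' hcu hc' ((2:ℝ) ^ (-t0)) A C1 hs0pos hA1 hC1
  obtain ⟨D7, _, hasym⟩ := H453.asym t0
  refine ⟨max (2 * max CE 0) (10 * (2 * max CT 0)) * 100,
    max D1 (max D2 (max D3 (max D4 (max D5 (max D6 D7))))), ?_⟩
  intro D n ι _ d hD
  simp only [max_le_iff] at hD
  obtain ⟨hD1, hD2, hD3, hD4, hD5, hD6, hD7⟩ := hD
  obtain ⟨hl4, hlD, hW, hlog, hll, hq, _⟩ := hasym D hD7
  have hl0 : (0:ℝ) < ll D := by linarith
  have hD0 : 0 < D := by linarith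
  have hW1 : 1 ≤ D / ll D := by rw [le_div_iff₀ hl0]; linarith
  have hHull := fun J j a Y h1 h2 h3 h4 h5 h6 h7 => hH D n d.p J j a Y hD4 h1 h2 h3 h4 h5 h6 h7
  have herr : D / (ll D : ℝ) ^ 2 ≤ D / ll D / 4 := by
    rw [div_div]
    apply div_le_div_of_nonneg_left hD0.le (by positivity)
    nlinarith
  apply root_ok d (c := cu) hD0 hl4 hlD hlog hll
    (le_trans (by positivity) (le_max_left (2 * max CE 0) _)) _ (X_nonneg d hHull)
  exact bellmanB (sgain d) (sM d) (sX d) (sH d) snn sht (sV d cu)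
    (W := D / ll D) (l := ll D) (c := 2) (D := D) (err := D / (ll D : ℝ) ^ 2)
    (CE := max CE 0) (C0 := 2 * max CT 0) (q := qm D)
    (by linarith) hW1 hD0 rfl (by norm_num) (le_max_right _ _) (by positivity)
    hq herr (fun S _ => ms_nonneg d _ _ _) (X_nonneg d hHull)
    (fun S hS => H_ge_one d hlog hll S hS)
    (fun S hS _ => triv_ok d hD0 hlog hll
      (fun q j a h1 h2 h3 h4 => hT D n ι d q j a hD3 h1 h2 h3 h4) S hS)
    (fun S hS hnn hHS => step_ok d (c := cu) (A := A) (c' := c') hc' ht0 rfl rfl htail hA hD0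
      hl4 hlD hW hlog hll S hS hnn hHS
      (fun J j a Z s h1 h2 h3 h4 h5 h6 h7 h8 => hcut D n ι d J j a Z s hD1 h1 h2 h3 h4 h5 h6 h7 h8)
      (fun J j0 a0 Y W h => (hE1 D n ι d J j0 a0 Y W hD2 h).trans
        (mul_le_mul_of_nonneg_right (mul_le_mul_of_nonneg_right (le_max_left _ _)
          (by linarith)) (ms_nonneg d _ _ _)))
      hHull
      (fun J j0 a0 Y E h1 h2 h3 h4 h5 h6 h7 => hX D n ι d J j0 a0 Y E hD5 h1 h2 h3 h4 h5 h6 h7)
      (fun J j0 a0 Y E h1 h2 h3 h4 h5 h6 h7 =>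
        hEP D n ι d J j0 a0 Y E hD6 h1 h2 h3 h4 h5 h6 h7))
    _ (le_max_left _ _) (le_max_right _ _)

end Vale.Agent.P091.T.H17
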