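import Vale.Agent.P091.T.H17.Basics
import Vale.Agent.P091.T.H17.Bell2

/-! # P091, heart, row BELL: one step of the induction -/

set_option autoImplicit false

open Finset
open Vale.Agent.P091.Spec
open Vale.Agent.P065.Ent

noncomputable section

namespace Vale.Agent.P091.T.H17

theorem sum_filter_le {α : Type} (L : List α) (p : α → Prop) [DecidablePred p] (f g : α → ℝ)
    (h1 : ∀ e ∈ L, p e → f e ≤ g e) (h2 : ∀ e ∈ L, ¬ p e → 0 ≤ g e) :
    ((L.filter p).map f).sum ≤ (L.map g).sum := by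
  induction L with
  | nil => simp
  | cons a L ih =>
    have ih' := ih (fun e he => h1 e (List.mem_cons_of_mem _ he))
      (fun e he => h2 e (List.mem_cons_of_mem _ he))
    by_cases hp : p a
    · rw [List.filter_cons_of_pos (by simpa using hp)]
      simp only [List.map_cons, List.sum_cons]
      linarith [h1 a List.mem_cons_self hp]
    · rw [List.filter_cons_of_neg (by simpa using hp)]
      simp only [List.map_cons, List.sum_cons]
      linarith [h2 a List.mem_cons_self hp]

theorem sum_le_filter {α : Type} (L : List α) (p : α → Prop) [DecidablePred p] (f g : α → ℝ)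
    (h1 : ∀ e ∈ L, p e → g e ≤ f e) (h2 : ∀ e ∈ L, ¬ p e → g e ≤ 0) :
    (L.map g).sum ≤ ((L.filter p).map f).sum := by
  induction L with
  | nil => simp
  | cons a L ih =>
    have ih' := ih (fun e he => h1 e (List.mem_cons_of_mem _ he))
      (fun e he => h2 e (List.mem_cons_of_mem _ he))
    by_cases hp : p a
    · rw [List.filter_cons_of_pos (by simpa using hp)]
      simp only [List.map_cons, List.sum_cons]
      linarith [h1 a List.mem_cons_self hp]
    · rw [List.filter_cons_of_neg (by simpa using hp)]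
      simp only [List.map_cons, List.sum_cons]
      linarith [h2 a List.mem_cons_self hp]

theorem fin_sum {α : Type} (L : List α) (f : α → ℝ) :
    ∑ i : Fin L.length, f (L.get i) = (L.map f).sum := by
  simp

theorem list_split {α : Type} (L : List α) (f g h : α → ℝ) (c : ℝ) :
    (L.map fun e => f e + c * g e - h e).sum =
      (L.map f).sum + c * (L.map g).sum - (L.map h).sum := by
  induction L with
  | nil => simp
  | cons a L ih => simp only [List.map_cons, List.sum_cons, ih]; ring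

section
variable {C1 D : ℝ} {n : ℕ} {ι : Type} [Fintype ι] (d : ZData C1 D n (bb D) ι)

/-- the numbers of a state -/
def sgain (S : St n (bb D)) : ℝ := ‖gain d (cut d.p S.Y) S.j S.a‖
def sM (S : St n (bb D)) : ℝ := ms n S.j S.a (cut d.p S.Y)
def sX (S : St n (bb D)) : ℝ :=
  KL n S.j S.a (cut d.p S.Y) - F S.J S.j + D / (ll D : ℝ) ^ 10
def sH (S : St n (bb D)) : ℝ := ll D - Real.logb 2 (dn d S.j S.a S.Y)
def snn (S : St n (bb D)) : ℕ := S.J.length
def sht (S : St n (bb D)) : ℕ := (n - S.j) + S.Y.card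
def sV (c : ℝ) (S : St n (bb D)) : Prop := Valid d c S ∧ S.j + 2 ≤ n

/-- the list at an exit -/
def nl (J : List (Un n (bb D))) (e : Rec (ℕ × Un n (bb D))) : List (Un n (bb D)) :=
  match e.b with
  | none => J
  | some w => w.2 :: J

/-- the state at an exit -/
def toSt (J : List (Un n (bb D))) (e : Rec (ℕ × Un n (bb D))) : St n (bb D) :=
  ⟨e.j, e.a, e.Y, nl J e⟩

/-- the kind of an exit -/
def kd (B0 : ℝ) (e : Rec (ℕ × Un n (bb D))) : Fin 3 :=
  match e.b with
  | none => if 2 * B0 < dn d e.j e.a e.Y then 0 else 2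
  | some _ => 1

/-- bound for the increase of the number of doublings -/
def se (B0 K1 : ℝ) (e : Rec (ℕ × Un n (bb D))) : ℝ :=
  match e.b with
  | none => Real.logb 2 (B0 / dn d e.j e.a e.Y)
  | some w => 2 * w.1 + K1

/-- net growth -/
def ge (A K1 : ℝ) (e : Rec (ℕ × Un n (bb D))) : ℝ :=
  match e.b with
  | none => 0
  | some w => th A D w.1 / 5 - (2 * w.1 + K1) - 1

/-- exits which are continued -/
def good (e : Rec (ℕ × Un n (bb D))) : Prop :=
  0 < ∑ i ∈ e.Y, d.p i ∧ dn d e.j e.a e.Y ≤ Real.log D ^ 2 ∧ e.j + 2 ≤ n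

theorem H_ge_one {c : ℝ} (hlog : 1 ≤ Real.log D)
    (hll : 2 * Real.logb 2 (Real.log D) ≤ (ll D : ℝ) - 1) (S : St n (bb D)) (hS : sV d c S) :
    1 ≤ sH d S := by
  have hdn : 0 < dn d S.j S.a S.Y := by
    rw [dn_eq d hS.1.Y_sub]; exact div_pos hS.1.pos (by positivity)
  have h1 : Real.logb 2 (dn d S.j S.a S.Y) ≤ Real.logb 2 (Real.log D ^ 2) :=
    Real.logb_le_logb_of_le (by norm_num) hdn hS.1.alive
  rw [Real.logb_pow] at h1
  unfold sH
  push_cast at h1
  linarith

theorem X_le {c : ℝ} (hD : 0 < D) (hl4 : 4 ≤ (ll D : ℝ)) (hlog : 1 ≤ Real.log D)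
    (hll : 2 * Real.logb 2 (Real.log D) ≤ (ll D : ℝ) - 1) (S : St n (bb D)) (hS : sV d c S) :
    sX d S ≤ 2 * D + sH d S := by
  have hdn : 0 < dn d S.j S.a S.Y := by
    rw [dn_eq d hS.1.Y_sub]; exact div_pos hS.1.pos (by positivity)
  have h1 := KL_le d hS.1.Y_sub hS.1.pos
  have h2 := F_nonneg S.J (fun k hk => (hS.1.ok k hk).P1) S.j
  have h3 := H_ge_one d hlog hll S hS
  have hlog2 : 0 < Real.log 2 := Real.log_pos (by norm_num)
  have hlog2' : Real.log 2 ≤ 1 := by linarith [Real.log_two_lt_d9]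
  have h4 : Real.log (dn d S.j S.a S.Y) = Real.logb 2 (dn d S.j S.a S.Y) * Real.log 2 := by
    rw [Real.logb]; field_simp
  have h5 : -Real.log (dn d S.j S.a S.Y) ≤ sH d S := by
    rw [h4]
    unfold sH at h3 ⊢
    set x := Real.logb 2 (dn d S.j S.a S.Y)
    rcases le_or_gt x 0 with hx | hx
    · have : -(x * Real.log 2) ≤ -x := by nlinarith
      linarith
    · have : 0 ≤ x * Real.log 2 := by positivity
      linarith
  have h6 : D / (ll D : ℝ) ^ 10 ≤ D := by
    apply div_le_self hD.le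
    exact one_le_pow₀ (by linarith)
  unfold sX
  linarith

open Classical in
/-- **One step.** -/
theorem step_ok {A c c' s0 t0 K1 CE : ℝ} (hc' : 0 < c') (ht0 : 1 ≤ t0)
    (hs0 : s0 = (2:ℝ) ^ (-t0)) (hK1 : K1 = t0 + |Real.logb 2 c'|)
    (htail : ∀ t, t0 ≤ t → 80 * t ^ 2 ≤ (2:ℝ) ^ t)
    (hA : ∀ s : ℕ, 1 + 10 * (2 * (s:ℝ) + K1) ^ 2 + (2 * (s:ℝ) + K1) + 1 ≤
      A * (2:ℝ) ^ ((s:ℝ) / 4) / 5)
    (hD : 0 < D) (hl4 : 4 ≤ (ll D : ℝ)) (hlD : (ll D : ℝ) ≤ D)
    (hW : ((ll D : ℝ) ^ 2 + t0) * Real.log 2 ≤ D) (hlog : 1 ≤ Real.log D)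
    (hll : 2 * Real.logb 2 (Real.log D) ≤ (ll D : ℝ) - 1)
    (S : St n (bb D)) (hS : sV d c S) (hnn : snn S < qm D) (hHS : sH d S < (ll D : ℝ) ^ 2)
    (hcut : ∀ (J : List (Un n (bb D))) (j a : ℕ) (Z : Finset ℕ) (s : ℕ),
      j ≤ n → a < 2 ^ j → Z ⊆ nd n j a → (∀ k ∈ J, IsProb k.P) →
      Real.exp (-D) ≤ av n j a (cut d.p Z) → 1 ≤ s → s ≤ sm A C1 D →
      Real.exp (-(th A D s / 2)) < ubm d J (cut d.p Z) (th A D s) ((1 / 2 : ℝ) ^ s) j a →
      ∃ (k : Un n (bb D)) (Y' : Finset ℕ), Y' ⊆ Z ∧ k.Ok (ep c D) D Y' ∧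
        c' * (1 / 4 : ℝ) ^ s * av n j a (cut d.p Z) ≤ av n j a (cut d.p Y') ∧
        F J j + th A D s / 5 ≤ F (k :: J) j)
    (hE1 : ∀ (J : List (Un n (bb D))) (j0 a0 : ℕ) (Y : Finset ℕ) (W : ℕ → ℕ → Finset ℕ),
      Epoch d A c s0 J j0 a0 Y W →
      ‖below j0 a0 (n - 1) fun j a => ng d (cut d.p (W j a)) j a‖
        ≤ CE * (D / ll D) * ms n j0 a0 (cut d.p Y))
    (hHull : ∀ (J : List (Un n (bb D))) (j a : ℕ) (Y : Finset ℕ),
      j ≤ n → a < 2 ^ j → Y ⊆ nd n j a → (∀ i, 0 ≤ d.p i) → 0 < ∑ i ∈ Y, d.p i →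
      J.length ≤ qm D → (∀ k ∈ J, k.Ok (ep c D) D Y) →
      F J j ≤ KL n j a (cut d.p Y) + D / (ll D : ℝ) ^ 10)
    (hPX : ∀ (J : List (Un n (bb D))) (j0 a0 : ℕ) (Y : Finset ℕ) (E : Ep (ℕ × Un n (bb D))),
      j0 ≤ n → a0 < 2 ^ j0 → Y ⊆ nd n j0 a0 → 0 < ∑ i ∈ Y, d.p i →
      J.length ≤ qm D → (∀ k ∈ J, k.Ok (ep c D) D Y) → Plan d A c c' s0 J j0 a0 Y E →
      ((exits n E j0 a0 Y).map fun e =>
        ms n e.j e.a (cut d.p e.Y) * (KL n e.j e.a (cut d.p e.Y) - F J e.j)).sum ≤
      ms n j0 a0 (cut d.p Y) * (KL n j0 a0 (cut d.p Y) - F J j0 + D / (ll D : ℝ) ^ 2) +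
        ((exits n E j0 a0 Y).map fun e => if e.b.isSome then
          ms n e.j e.a (cut d.p e.Y) * (Real.log (dn d e.j e.a e.Z / dn d e.j e.a e.Y) + 1)
          else 0).sum)
    (hEP : ∀ (J : List (Un n (bb D))) (j0 a0 : ℕ) (Y : Finset ℕ) (E : Ep (ℕ × Un n (bb D))),
      j0 ≤ n → a0 < 2 ^ j0 → Y ⊆ nd n j0 a0 → Real.exp (-D) ≤ dn d j0 a0 Y →
      J.length ≤ qm D → (∀ k ∈ J, k.Ok (ep c D) D Y) → Plan d A c c' s0 J j0 a0 Y E →
      Epoch d A c s0 J j0 a0 Y (dep n E j0 a0 Y)) :
    EpochB (sgain d) (sM d) (sX d) (sH d) snn sht (sV d c) (D / ll D) 2 D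
      (D / (ll D : ℝ) ^ 2) CE S := by
  obtain ⟨hV, hjn⟩ := hS
  have hl0 : (0:ℝ) < ll D := by linarith
  have hs0pos : 0 < s0 := by rw [hs0]; positivity
  have hs0le : s0 ≤ 1 / 2 := by
    rw [hs0]
    calc (2:ℝ) ^ (-t0) ≤ (2:ℝ) ^ (-1:ℝ) :=
          Real.rpow_le_rpow_of_exponent_le (by norm_num) (by linarith)
      _ = 1 / 2 := by rw [Real.rpow_neg_one]; norm_num
  have hlogs0 : Real.logb 2 s0 = -t0 := by
    rw [hs0, Real.logb_rpow (by norm_num) (by norm_num)]
  set B0 : ℝ := dn d S.j S.a S.Y with hB0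
  have hB0pos : 0 < B0 := by rw [hB0, dn_eq d hV.Y_sub]; exact div_pos hV.pos (by positivity)
  have hHval : sH d S = ll D - Real.logb 2 B0 := rfl
  have hlog2 : 0 < Real.log 2 := Real.log_pos (by norm_num)
  -- the density of the root is not tiny
  have hexp : Real.exp (-D) ≤ s0 * B0 := by
    have h1 : -((ll D : ℝ) ^ 2) ≤ Real.logb 2 B0 := by
      rw [hHval] at hHS
      linarith
    have h2 : Real.logb 2 (s0 * B0) = -t0 + Real.logb 2 B0 := by
      rw [Real.logb_mul hs0pos.ne' hB0pos.ne', hlogs0]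
    have h3 : Real.log (s0 * B0) = Real.logb 2 (s0 * B0) * Real.log 2 := by
      rw [Real.logb]; field_simp
    have h4 : -D ≤ Real.log (s0 * B0) := by
      rw [h3, h2]
      have : -((ll D : ℝ) ^ 2 + t0) * Real.log 2 ≤ (-t0 + Real.logb 2 B0) * Real.log 2 :=
        mul_le_mul_of_nonneg_right (by linarith) hlog2.le
      linarith
    calc Real.exp (-D) ≤ Real.exp (Real.log (s0 * B0)) := Real.exp_le_exp.mpr h4
      _ = s0 * B0 := Real.exp_log (by positivity)
  have hexpB : Real.exp (-D) ≤ B0 := by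
    have : s0 * B0 ≤ 1 * B0 := mul_le_mul_of_nonneg_right (by linarith) hB0pos.le
    linarith
  have hPJ : ∀ k ∈ S.J, IsProb k.P := fun k hk => (hV.ok k hk).P1
  -- the plan
  have hbot : ∀ j a W, n ≤ j → StopR d s0 B0 j a W := fun j a W hj => Or.inl (by omega)
  have hplan : ∃ E : Ep (ℕ × Un n (bb D)), Plan d A c c' s0 S.J S.j S.a S.Y E := by
    apply exists_fits hbot _ S.j S.a S.Y hV.a_lt hV.Y_sub
    intro j a W hj ha hW hns
    by_cases hdone : DoneR d A S.J j a W
    · exact Or.inl hdone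
    · right
      unfold DoneR Rule at hdone
      push Not at hdone
      obtain ⟨s, hs1, hs2, hs3⟩ := hdone
      unfold StopR at hns
      push Not at hns
      obtain ⟨h1, h2, h3⟩ := hns
      obtain ⟨k, Y', hY', hk, hm, hF⟩ := hcut S.J j a W s hj.le ha hW hPJ
        (le_trans hexp h3) hs1 hs2 hs3
      refine ⟨(s, k), Y', ⟨hs1, hs2, hk, hm, hF⟩, hY', ?_⟩
      rw [Finset.nonempty_iff_ne_empty]
      intro h0
      rw [h0] at hm
      have hz : av n j a (cut d.p ∅) = 0 := by unfold av cut; simp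
      rw [hz] at hm
      have : 0 < c' * (1 / 4 : ℝ) ^ s * av n j a (cut d.p W) := by
        have : 0 < av n j a (cut d.p W) := lt_of_lt_of_le (by positivity) h3
        positivity
      linarith
  obtain ⟨E, hE⟩ := hplan
  have hns0 : ¬ StopR d s0 B0 S.j S.a S.Y := by
    unfold StopR
    push Not
    refine ⟨hjn, ?_, ?_⟩
    · show B0 ≤ 2 * B0
      linarith
    · show s0 * B0 ≤ B0
      have : s0 * B0 ≤ 1 * B0 := mul_le_mul_of_nonneg_right (by linarith) hB0pos.le
      linarith
  set L := exits n E S.j S.a S.Y with hL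
  have hspec := exits_spec hbot E S.j S.a S.Y hV.Y_sub hV.j_le hV.a_lt hE
  have hprog := exits_progress hbot E S.j S.a S.Y hV.Y_sub hV.j_le hV.a_lt hE hns0
  -- properties of an exit
  have hYnd : ∀ e ∈ L, e.Y ⊆ nd n e.j e.a := fun e he =>
    (hspec e he).Y_sub.trans (hspec e he).Z_nd
  have hYS : ∀ e ∈ L, e.Y ⊆ S.Y := fun e he =>
    (hspec e he).Y_sub.trans (hspec e he).Z_sub
  have hlen : ∀ e ∈ L, (nl S.J e).length ≤ qm D := by
    intro e _
    unfold nl
    have : S.J.length < qm D := hnn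
    rcases e.b with _ | w
    · exact this.le
    · simp only [List.length_cons]; omega
  have hok : ∀ e ∈ L, ∀ k ∈ nl S.J e, k.Ok (ep c D) D e.Y := by
    intro e he k hk
    have h1 := (hspec e he).some_case
    unfold nl at hk
    rcases hb : e.b with _ | w
    · rw [hb] at hk
      exact ok_mono (hV.ok k hk) (hYS e he)
    · rw [hb] at hk
      simp only [List.mem_cons] at hk
      rcases hk with hk | hk
      · rw [hk]; exact (h1 w hb).2.1.2.2.1
      · exact ok_mono (hV.ok k hk) (hYS e he)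
  have hvalid : ∀ e ∈ L, good d e → sV d c (toSt S.J e) := by
    intro e he hg
    exact ⟨⟨(hspec e he).j_le, (hspec e he).a_lt, hYnd e he, hg.1, hg.2.1, hlen e he,
      hok e he⟩, hg.2.2⟩
  set L' := L.filter (fun e => good d e) with hL'
  have hmem : ∀ i : Fin L'.length, L'.get i ∈ L ∧ good d (L'.get i) := by
    intro i
    have h := List.mem_filter.mp (List.get_mem L' i)
    exact ⟨h.1, by simpa using h.2⟩
  have hdnpos : ∀ e ∈ L, 0 < ∑ i ∈ e.Y, d.p i → 0 < dn d e.j e.a e.Y := by
    intro e he hp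
    rw [dn_eq d (hYnd e he)]; exact div_pos hp (by positivity)
  -- the height
  have hht : ∀ e ∈ L, sht (toSt S.J e) ≤ sht S := by
    intro e he
    have h1 := Finset.card_le_card (hYS e he)
    have h2 := (hspec e he).j_ge
    unfold sht toSt
    simp only
    omega
  have hht' : ∀ e ∈ L, e.b = none → sht (toSt S.J e) < sht S := by
    intro e he hb
    have h1 := Finset.card_le_card (hYS e he)
    have h2 := (hspec e he).j_ge
    have h3 := (hspec e he).j_le
    rcases hprog e he hb with h | h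
    · unfold sht toSt
      simp only
      omega
    · have := Finset.card_lt_card h
      unfold sht toSt
      simp only
      omega
  have hnone : ∀ e : Rec (ℕ × Un n (bb D)), e.b = none →
      nl S.J e = S.J ∧ se d B0 K1 e = Real.logb 2 (B0 / dn d e.j e.a e.Y) := by
    intro e hb
    unfold nl se
    rw [hb]
    exact ⟨rfl, rfl⟩
  have hsome : ∀ (e : Rec (ℕ × Un n (bb D))) (w : ℕ × Un n (bb D)), e.b = some w →
      nl S.J e = w.2 :: S.J ∧ se d B0 K1 e = 2 * w.1 + K1 ∧ kd d B0 e = 1 ∧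
      ge A K1 e = th A D w.1 / 5 - (2 * w.1 + K1) - 1 := by
    intro e w hb
    unfold nl se kd ge
    rw [hb]
    exact ⟨rfl, rfl, rfl, rfl⟩
  have hkd0 : ∀ e : Rec (ℕ × Un n (bb D)), kd d B0 e = 0 →
      e.b = none ∧ 2 * B0 < dn d e.j e.a e.Y := by
    intro e he
    rcases hb : e.b with _ | w
    · refine ⟨rfl, ?_⟩
      unfold kd at he
      rw [hb] at he
      by_contra h
      simp only [h, if_false] at he
      exact absurd he (by decide)
    · rw [(hsome e w hb).2.2.1] at he
      exact absurd he (by decide)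
  have hkd2 : ∀ e : Rec (ℕ × Un n (bb D)), kd d B0 e = 2 →
      e.b = none ∧ dn d e.j e.a e.Y ≤ 2 * B0 := by
    intro e he
    rcases hb : e.b with _ | w
    · refine ⟨rfl, ?_⟩
      unfold kd at he
      rw [hb] at he
      by_contra h
      push Not at h
      simp only [h, if_true] at he
      exact absurd he (by decide)
    · rw [(hsome e w hb).2.2.1] at he
      exact absurd he (by decide)
  have hkd1 : ∀ e : Rec (ℕ × Un n (bb D)), kd d B0 e = 1 → ∃ w, e.b = some w := by
    intro e he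
    rcases hb : e.b with _ | w
    · unfold kd at he
      rw [hb] at he
      simp only at he
      split_ifs at he
      · exact absurd he (by decide)
      · exact absurd he (by decide)
    · exact ⟨w, rfl⟩
  have hK1' : 1 ≤ K1 := by rw [hK1]; have := abs_nonneg (Real.logb 2 c'); linarith
  -- sparse exits
  have hsp : ∀ e ∈ L, good d e → kd d B0 e = 2 → dn d e.j e.a e.Y < s0 * B0 := by
    intro e he hg hk
    obtain ⟨hb, h2⟩ := hkd2 e hk
    obtain ⟨h3, h4⟩ := (hspec e he).none_case hb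
    rw [← h3] at h4
    rcases h4 with h | h | h
    · have := hg.2.2; omega
    · linarith
    · exact h
  have hse2 : ∀ e ∈ L, good d e → kd d B0 e = 2 → t0 ≤ se d B0 K1 e := by
    intro e he hg hk
    have h1 := hsp e he hg hk
    have h2 := hdnpos e he hg.1
    rw [(hnone e (hkd2 e hk).1).2, Real.logb_div hB0pos.ne' h2.ne']
    have h3 : Real.logb 2 (dn d e.j e.a e.Y) ≤ Real.logb 2 (s0 * B0) :=
      Real.logb_le_logb_of_le (by norm_num) h2 h1.le
    rw [Real.logb_mul hs0pos.ne' hB0pos.ne', hlogs0] at h3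
    linarith
  -- the growth of a piece
  have hge : ∀ s : ℕ, D / ll D * (1 + (2 + 8) * (2 * (s:ℝ) + K1) ^ 2) ≤
      th A D s / 5 - (2 * (s:ℝ) + K1) - 1 := by
    intro s
    have h1 := hA s
    have hWge : 1 ≤ D / ll D := by rw [le_div_iff₀ hl0]; linarith
    have h2 := mul_le_mul_of_nonneg_left h1 (by linarith : 0 ≤ D / (ll D : ℝ))
    have e1 : D / ll D * (A * (2:ℝ) ^ ((s:ℝ) / 4) / 5) = th A D s / 5 := by
      unfold th; field_simp
    rw [e1] at h2
    have h3 : (2 * (s:ℝ) + K1) + 1 ≤ D / ll D * ((2 * (s:ℝ) + K1) + 1) :=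
      le_mul_of_one_le_left (by positivity) hWge
    have e2 : D / ll D * (1 + 10 * (2 * (s:ℝ) + K1) ^ 2 + (2 * (s:ℝ) + K1) + 1) =
      D / ll D * (1 + (2 + 8) * (2 * (s:ℝ) + K1) ^ 2) + D / ll D * ((2 * (s:ℝ) + K1) + 1) := by
      ring
    rw [e2] at h2
    linarith
  -- the logarithm of the ratio of a piece
  have hratio : ∀ e ∈ L, ∀ w, e.b = some w → 0 < dn d e.j e.a e.Y ∧
      Real.logb 2 (dn d e.j e.a e.Z) - Real.logb 2 (dn d e.j e.a e.Y) ≤
        2 * w.1 + |Real.logb 2 c'| ∧ s0 * B0 ≤ dn d e.j e.a e.Z := by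
    intro e he w hb
    obtain ⟨h1, h2, h3⟩ := (hspec e he).some_case w hb
    unfold StopR at h1
    push Not at h1
    have hZ : 0 < dn d e.j e.a e.Z := lt_of_lt_of_le (by positivity) h1.2.2
    have h4 := h2.2.2.2.1
    have hY : 0 < dn d e.j e.a e.Y := lt_of_lt_of_le (by positivity) h4
    refine ⟨hY, ?_, h1.2.2⟩
    have h5 : Real.logb 2 (c' * (1 / 4 : ℝ) ^ w.1 * dn d e.j e.a e.Z) ≤
        Real.logb 2 (dn d e.j e.a e.Y) :=
      Real.logb_le_logb_of_le (by norm_num) (by positivity) h4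
    rw [Real.logb_mul (by positivity) hZ.ne', Real.logb_mul hc'.ne' (by positivity),
      Real.logb_pow] at h5
    have h6 : Real.logb 2 (1 / 4 : ℝ) = -2 := by
      rw [show (1 / 4 : ℝ) = (2:ℝ) ^ (-2 : ℝ) by
        rw [Real.rpow_neg (by norm_num)]; norm_num]
      exact Real.logb_rpow (by norm_num) (by norm_num)
    rw [h6] at h5
    have := neg_abs_le (Real.logb 2 c')
    linarith
  refine ⟨Fin L'.length, inferInstance, fun i => toSt S.J (L'.get i),
    fun i => kd d B0 (L'.get i), fun i => se d B0 K1 (L'.get i), fun i => ge A K1 (L'.get i),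
    ?_, ?_, ?_, ?_, ?_, ?_, ?_, ?_, ?_⟩
  · intro i
    exact hvalid _ (hmem i).1 (hmem i).2
  · intro i hi
    obtain ⟨hb, h2⟩ := hkd0 _ hi
    refine ⟨hht' _ (hmem i).1 hb, ?_, ?_⟩
    · unfold snn toSt
      simp only
      rw [(hnone _ hb).1]
    · unfold sH toSt
      simp only
      have h3 : Real.logb 2 (2 * B0) ≤ Real.logb 2 (dn d (L'.get i).j (L'.get i).a (L'.get i).Y) :=
        Real.logb_le_logb_of_le (by norm_num) (by positivity) h2.le
      rw [Real.logb_mul (by norm_num) hB0pos.ne', Real.logb_self_eq_one (by norm_num)] at h3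
      linarith
  · intro i hi
    obtain ⟨w, hb⟩ := hkd1 _ hi
    refine ⟨hht _ (hmem i).1, ?_, ?_⟩
    · unfold snn toSt
      simp only
      rw [(hsome _ w hb).1]
      simp
    · beta_reduce
      rw [(hsome _ w hb).2.1, (hsome _ w hb).2.2.2]
      exact hge w.1
  · intro i hi
    obtain ⟨hb, h2⟩ := hkd2 _ hi
    refine ⟨hht' _ (hmem i).1 hb, ?_⟩
    unfold snn toSt
    simp only
    rw [(hnone _ hb).1]
  · intro i hi
    have hVi := hvalid _ (hmem i).1 (hmem i).2
    have hXi := X_le d hD hl4 hlog hll _ hVi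
    have hkd : ∀ k : Fin 3, k ≠ 0 → k = 1 ∨ k = 2 := by decide
    rcases hkd _ hi with h | h
    · obtain ⟨w, hb⟩ := hkd1 _ h
      obtain ⟨hY, hr, hZ⟩ := hratio _ (hmem i).1 w hb
      refine ⟨?_, hXi, ?_⟩
      · beta_reduce
        rw [(hsome _ w hb).2.1]
        unfold sH toSt
        simp only
        have h3 : Real.logb 2 (s0 * B0) ≤
            Real.logb 2 (dn d (L'.get i).j (L'.get i).a (L'.get i).Z) :=
          Real.logb_le_logb_of_le (by norm_num) (by positivity) hZ
        rw [Real.logb_mul hs0pos.ne' hB0pos.ne', hlogs0] at h3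
        rw [hK1]
        linarith
      · beta_reduce
        rw [(hsome _ w hb).2.1]
        have : (0:ℝ) ≤ w.1 := by positivity
        linarith
    · refine ⟨?_, hXi, ?_⟩
      · beta_reduce
        rw [(hnone _ (hkd2 _ h).1).2,
          Real.logb_div hB0pos.ne' (hdnpos _ (hmem i).1 (hmem i).2.1).ne']
        unfold sH toSt
        simp only
        linarith
      · exact ht0.trans (hse2 _ (hmem i).1 (hmem i).2 h)
  · -- masses
    rw [fin_sum L' (fun e => sM d (toSt S.J e))]
    have h1 := sum_filter_le L (good d) (fun e => sM d (toSt S.J e))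
      (fun e => (∑ i ∈ e.Y, d.p i / 2 ^ n)) (fun e he _ => by
        show ms n e.j e.a (cut d.p e.Y) ≤ _
        rw [ms_eq d (hYnd e he), Finset.sum_div])
      (fun e _ _ => Finset.sum_nonneg fun i _ => div_nonneg (d.p_nonneg i) (by positivity))
    refine h1.trans ?_
    rw [sum_plan (fun i => d.p i / 2 ^ n) hbot E S.j S.a S.Y hV.Y_sub hE]
    show _ ≤ ms n S.j S.a (cut d.p S.Y)
    rw [ms_eq d hV.Y_sub, Finset.sum_div]
  · -- sparse exits
    rw [Finset.sum_filter, fin_sum L' (fun e => if kd d B0 e = 2 then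
      sM d (toSt S.J e) * ((2 + 8) * se d B0 K1 e ^ 2) else 0)]
    have h1 := sum_filter_le L (good d) (fun e => if kd d B0 e = 2 then
      sM d (toSt S.J e) * ((2 + 8) * se d B0 K1 e ^ 2) else 0)
      (fun e => B0 / 8 * (if e.b.isNone then (1 / 2 : ℝ) ^ e.j else 0)) (fun e he hg => by
        by_cases hk : kd d B0 e = 2
        · have hb := (hkd2 e hk).1
          have h2 := hdnpos e he hg.1
          have h3 := hse2 e he hg hk
          have h4 := htail _ h3
          rw [if_pos hk, hb]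
          simp only [Option.isNone_none, if_true]
          show ms n e.j e.a (cut d.p e.Y) * _ ≤ _
          rw [ms_eq_dn d (hYnd e he) (hspec e he).j_le]
          have h5 : (2:ℝ) ^ (se d B0 K1 e) = B0 / dn d e.j e.a e.Y := by
            rw [(hnone e hb).2]
            exact Real.rpow_logb (by norm_num) (by norm_num) (by positivity)
          rw [h5, le_div_iff₀ h2] at h4
          have h6 : (0:ℝ) ≤ (1 / 2 : ℝ) ^ e.j := by positivity
          have h7 : dn d e.j e.a e.Y * ((2 + 8) * se d B0 K1 e ^ 2) ≤ B0 / 8 := by linarith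
          calc dn d e.j e.a e.Y * (1 / 2 : ℝ) ^ e.j * ((2 + 8) * se d B0 K1 e ^ 2) =
              (dn d e.j e.a e.Y * ((2 + 8) * se d B0 K1 e ^ 2)) * (1 / 2 : ℝ) ^ e.j := by ring
            _ ≤ _ := mul_le_mul_of_nonneg_right h7 h6
        · rw [if_neg hk]
          apply mul_nonneg (by positivity)
          split_ifs <;> positivity)
      (fun e _ _ => by
        apply mul_nonneg (by positivity)
        split_ifs <;> positivity)
    refine h1.trans (le_of_eq ?_)
    rw [List.sum_map_mul_left, sum_stop E S.j S.a S.Y]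
    show _ = ms n S.j S.a (cut d.p S.Y) / 8
    rw [ms_eq_dn d hV.Y_sub hV.j_le]
    ring
  · -- the potentials
    rw [Finset.sum_filter, fin_sum L' (fun e => sM d (toSt S.J e) * sX d (toSt S.J e)),
      fin_sum L' (fun e => if kd d B0 e = 1 then sM d (toSt S.J e) * ge A K1 e else 0)]
    rw [le_sub_iff_add_le, ← List.sum_map_add]
    have hX1 := hPX S.J S.j S.a S.Y E hV.j_le hV.a_lt hV.Y_sub hV.pos hV.len hV.ok hE
    set c0 : ℝ := D / (ll D : ℝ) ^ 10 with hc0
    have hlog2' : Real.log 2 ≤ 1 := by linarith [Real.log_two_lt_d9]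
    -- pointwise
    have hpt : ∀ e ∈ L, 0 < ∑ i ∈ e.Y, d.p i →
        sX d (toSt S.J e) + (if kd d B0 e = 1 then ge A K1 e else 0) ≤
          KL n e.j e.a (cut d.p e.Y) - F S.J e.j + c0 -
            (if e.b.isSome then Real.log (dn d e.j e.a e.Z / dn d e.j e.a e.Y) + 1 else 0) := by
      intro e he hpos
      rcases hb : e.b with _ | w
      · have hk : ¬ kd d B0 e = 1 := by
          intro h
          obtain ⟨w, hw⟩ := hkd1 e h
          rw [hb] at hw
          exact absurd hw (by simp)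
        rw [if_neg hk]
        unfold sX toSt
        simp only
        rw [(hnone e hb).1]
        simp [hc0]
      · obtain ⟨hY, hr, hZ⟩ := hratio e he w hb
        have hZ' : 0 < dn d e.j e.a e.Z := lt_of_lt_of_le (by positivity) hZ
        rw [if_pos (hsome e w hb).2.2.1, (hsome e w hb).2.2.2]
        unfold sX toSt
        simp only
        rw [(hsome e w hb).1]
        have h5 := ((hspec e he).some_case w hb).2.1.2.2.2.2
        have h6 : Real.log (dn d e.j e.a e.Z / dn d e.j e.a e.Y) ≤ 2 * w.1 + K1 := by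
          rw [Real.log_div hZ'.ne' hY.ne']
          have e1 : ∀ x : ℝ, Real.log x = Real.logb 2 x * Real.log 2 := fun x => by
            rw [Real.logb]; field_simp
          rw [e1, e1 (dn d e.j e.a e.Y), ← sub_mul]
          have h7 : 0 ≤ 2 * (w.1:ℝ) + |Real.logb 2 c'| := by positivity
          have h8 : (Real.logb 2 (dn d e.j e.a e.Z) - Real.logb 2 (dn d e.j e.a e.Y)) *
              Real.log 2 ≤ (2 * w.1 + |Real.logb 2 c'|) * Real.log 2 :=
            mul_le_mul_of_nonneg_right hr hlog2.le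
          have h9 : (2 * (w.1:ℝ) + |Real.logb 2 c'|) * Real.log 2 ≤
              (2 * w.1 + |Real.logb 2 c'|) * 1 := mul_le_mul_of_nonneg_left hlog2' h7
          rw [hK1]
          linarith
        simp only [Option.isSome_some, if_true]
        linarith
    have h1 := sum_filter_le L (good d)
      (fun e => sM d (toSt S.J e) * sX d (toSt S.J e) +
        if kd d B0 e = 1 then sM d (toSt S.J e) * ge A K1 e else 0)
      (fun e => ms n e.j e.a (cut d.p e.Y) * (KL n e.j e.a (cut d.p e.Y) - F S.J e.j) +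
        c0 * ms n e.j e.a (cut d.p e.Y) - (if e.b.isSome then
          ms n e.j e.a (cut d.p e.Y) * (Real.log (dn d e.j e.a e.Z / dn d e.j e.a e.Y) + 1)
          else 0)) (fun e he hg => by
        have h2 := mul_le_mul_of_nonneg_left (hpt e he hg.1) (ms_nonneg d e.j e.a e.Y)
        show ms n e.j e.a (cut d.p e.Y) * sX d (toSt S.J e) + (if kd d B0 e = 1 then
          ms n e.j e.a (cut d.p e.Y) * ge A K1 e else 0) ≤ _
        have e1 : (if kd d B0 e = 1 then ms n e.j e.a (cut d.p e.Y) * ge A K1 e else 0) =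
          ms n e.j e.a (cut d.p e.Y) * (if kd d B0 e = 1 then ge A K1 e else 0) := by
          split_ifs <;> simp
        have e2 : (if e.b.isSome then
          ms n e.j e.a (cut d.p e.Y) * (Real.log (dn d e.j e.a e.Z / dn d e.j e.a e.Y) + 1)
          else 0) = ms n e.j e.a (cut d.p e.Y) * (if e.b.isSome then
            Real.log (dn d e.j e.a e.Z / dn d e.j e.a e.Y) + 1 else 0) := by
          split_ifs <;> simp
        rw [e1, e2]
        linarith)
      (fun e he hg => by
        have e2 : (if e.b.isSome then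
          ms n e.j e.a (cut d.p e.Y) * (Real.log (dn d e.j e.a e.Z / dn d e.j e.a e.Y) + 1)
          else 0) = ms n e.j e.a (cut d.p e.Y) * (if e.b.isSome then
            Real.log (dn d e.j e.a e.Z / dn d e.j e.a e.Y) + 1 else 0) := by
          split_ifs <;> simp
        rw [e2]
        rcases (Finset.sum_nonneg fun i (_ : i ∈ e.Y) => d.p_nonneg i).eq_or_lt with h0 | h0
        · have : ms n e.j e.a (cut d.p e.Y) = 0 := by
            rw [ms_eq d (hYnd e he), ← h0, zero_div]
          rw [this]; simp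
        · have h2 := hpt e he h0
          have h3 := hHull (nl S.J e) e.j e.a e.Y (hspec e he).j_le (hspec e he).a_lt
            (hYnd e he) d.p_nonneg h0 (hlen e he) (hok e he)
          have h4 : 0 ≤ sX d (toSt S.J e) := by
            unfold sX toSt
            simp only
            linarith
          have h5 : 0 ≤ (if kd d B0 e = 1 then ge A K1 e else 0) := by
            split_ifs with hk
            · obtain ⟨w, hw⟩ := hkd1 e hk
              rw [(hsome e w hw).2.2.2]
              refine le_trans ?_ (hge w.1)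
              positivity
            · exact le_rfl
          have h6 := mul_nonneg (ms_nonneg d e.j e.a e.Y) (by linarith : 0 ≤
            KL n e.j e.a (cut d.p e.Y) - F S.J e.j + c0 -
            (if e.b.isSome then Real.log (dn d e.j e.a e.Z / dn d e.j e.a e.Y) + 1 else 0))
          linarith)
    refine h1.trans ?_
    have hmass : ((exits n E S.j S.a S.Y).map fun e => ms n e.j e.a (cut d.p e.Y)).sum =
        ms n S.j S.a (cut d.p S.Y) := by
      have h3 := sum_plan (fun i => d.p i / 2 ^ n) hbot E S.j S.a S.Y hV.Y_sub hE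
      rw [ms_eq d hV.Y_sub, Finset.sum_div, ← h3]
      congr 1
      apply List.map_congr_left
      intro e he
      rw [ms_eq d (hYnd e he), Finset.sum_div]
    have hsplit : (L.map fun e => ms n e.j e.a (cut d.p e.Y) *
        (KL n e.j e.a (cut d.p e.Y) - F S.J e.j) +
        c0 * ms n e.j e.a (cut d.p e.Y) - (if e.b.isSome then
          ms n e.j e.a (cut d.p e.Y) * (Real.log (dn d e.j e.a e.Z / dn d e.j e.a e.Y) + 1)
          else 0)).sum =
        (L.map fun e => ms n e.j e.a (cut d.p e.Y) *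
          (KL n e.j e.a (cut d.p e.Y) - F S.J e.j)).sum +
        c0 * (L.map fun e => ms n e.j e.a (cut d.p e.Y)).sum -
        (L.map fun e => if e.b.isSome then
          ms n e.j e.a (cut d.p e.Y) * (Real.log (dn d e.j e.a e.Z / dn d e.j e.a e.Y) + 1)
          else 0).sum := by
      exact list_split L _ _ _ c0
    rw [hsplit, hmass]
    show _ ≤ ms n S.j S.a (cut d.p S.Y) * (KL n S.j S.a (cut d.p S.Y) - F S.J S.j +
      D / (ll D : ℝ) ^ 10 + D / (ll D : ℝ) ^ 2)
    rw [← hc0]
    linarith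
  · -- the gain
    rw [fin_sum L' (fun e => sgain d (toSt S.J e))]
    have h1 := gain_plan d E S.j S.a S.Y hE
    have h2 := hE1 S.J S.j S.a S.Y _ (hEP S.J S.j S.a S.Y E hV.j_le hV.a_lt hV.Y_sub hexpB
      hV.len hV.ok hE)
    have h3 := sum_le_filter L (good d) (fun e => sgain d (toSt S.J e))
      (fun e => ‖gain d (cut d.p e.Y) e.j e.a‖) (fun e _ _ => le_rfl) (fun e he hg => by
        apply le_of_eq
        rw [norm_eq_zero]
        rcases (Finset.sum_nonneg fun i (_ : i ∈ e.Y) => d.p_nonneg i).eq_or_lt with h0 | h0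
        · apply gain_zero
          intro i
          unfold cut
          split_ifs with hi
          · exact (Finset.sum_eq_zero_iff_of_nonneg (fun i _ => d.p_nonneg i)).mp h0.symm i hi
          · rfl
        · unfold good at hg
          rcases lt_or_ge n (e.j + 2) with h | h
          · exact gain_bot d _ _ h
          · rcases le_or_gt (dn d e.j e.a e.Y) (Real.log D ^ 2) with h' | h'
            · exact absurd ⟨h0, h', h⟩ hg
            · exact gain_dead d _ (hspec e he).j_le h')
    show ‖gain d (cut d.p S.Y) S.j S.a‖ ≤ _ + ms n S.j S.a (cut d.p S.Y) * (CE * (D / ll D))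
    linarith

end

end Vale.Agent.P091.T.H17
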