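import Vale.Agent.P091.T.H17.BDefs

/-! # P091, heart, row BELL: identities over the tree of an epoch -/

set_option autoImplicit false

open Finset
open Vale.Agent.P091.Spec

noncomputable section

namespace Vale.Agent.P091.T.H17

/-! ### the sum over the nodes below a node -/

theorem below_ge {j0 a0 j1 : ℕ} (f : ℕ → ℕ → ℂ) (h : j1 ≤ j0) : below j0 a0 j1 f = 0 := by
  unfold below
  rw [Finset.Ico_eq_empty (by omega)]
  simp

theorem below_succ {j0 a0 j1 : ℕ} (f : ℕ → ℕ → ℂ) (h : j0 < j1) :
    below j0 a0 j1 f = f j0 a0 + below (j0 + 1) (2 * a0) j1 f +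
      below (j0 + 1) (2 * a0 + 1) j1 f := by
  unfold below
  rw [Finset.sum_eq_sum_Ico_succ_bot h, add_assoc, ← Finset.sum_add_distrib]
  congr 1
  · simp
  · apply Finset.sum_congr rfl
    intro j hj
    rw [Finset.mem_Ico] at hj
    have e1 : a0 * 2 ^ (j - j0) = 2 * a0 * 2 ^ (j - (j0 + 1)) := by
      have : 2 ^ (j - j0) = 2 * 2 ^ (j - (j0 + 1)) := by rw [← pow_succ']; congr 1; omega
      rw [this]; ring
    have e2 : (a0 + 1) * 2 ^ (j - j0) = (2 * a0 + 1 + 1) * 2 ^ (j - (j0 + 1)) := by
      have : 2 ^ (j - j0) = 2 * 2 ^ (j - (j0 + 1)) := by rw [← pow_succ']; congr 1; omega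
      rw [this]; ring
    rw [e1, e2]
    exact (Finset.sum_Ico_consecutive _ (Nat.mul_le_mul_right _ (by omega))
      (Nat.mul_le_mul_right _ (by omega))).symm

theorem below_congr {j0 a0 j1 : ℕ} {f g : ℕ → ℕ → ℂ}
    (h : ∀ j a, j0 ≤ j → j < j1 → a / 2 ^ (j - j0) = a0 → f j a = g j a) :
    below j0 a0 j1 f = below j0 a0 j1 g := by
  unfold below
  apply Finset.sum_congr rfl
  intro j hj
  rw [Finset.mem_Ico] at hj
  apply Finset.sum_congr rfl
  intro a ha
  rw [Finset.mem_Ico] at ha
  apply h j a hj.1 hj.2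
  apply Nat.div_eq_of_lt_le
  · exact ha.1
  · exact ha.2

theorem below_add {j0 a0 j1 : ℕ} (f g : ℕ → ℕ → ℂ) :
    below j0 a0 j1 (fun j a => f j a + g j a) = below j0 a0 j1 f + below j0 a0 j1 g := by
  unfold below
  rw [← Finset.sum_add_distrib]
  exact Finset.sum_congr rfl fun j _ => Finset.sum_add_distrib

theorem below_zero {j0 a0 j1 : ℕ} : below j0 a0 j1 (fun _ _ => 0) = 0 := by
  unfold below; simp

variable {β : Type} {n : ℕ}
variable {Stop Done : ℕ → ℕ → Finset ℕ → Prop} {Piece : ℕ → ℕ → Finset ℕ → β → Finset ℕ → Prop}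

/-- **Decomposition of an additive functional over a plan.** -/
theorem below_plan (g : ℕ → ℕ → Finset ℕ → ℂ) {J1 : ℕ}
    (hadd : ∀ j a W Y, Y ⊆ W → g j a W = g j a Y + g j a (W \ Y))
    (hloc : ∀ j a j' a' W, j ≤ j' → j' < J1 → a' / 2 ^ (j' - j) = a →
      g j' a' (W ∩ nd n j a) = g j' a' W) (E : Ep β) :
    ∀ j a W, Fits n Stop Done Piece E j a W →
      below j a J1 (fun j' a' => g j' a' W) =
        below j a J1 (fun j' a' => g j' a' (dep n E j a W j' a')) +
          ((exits n E j a W).map fun e => below e.j e.a J1 fun j' a' => g j' a' e.Y).sum := by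
  have h0 : ∀ j a, g j a ∅ = 0 := by
    intro j a
    have := hadd j a ∅ ∅ (Finset.Subset.refl _)
    simpa using this
  induction E with
  | stop =>
    intro j a W _
    simp only [dep, h0, exits, List.map_cons, List.map_nil, List.sum_cons, List.sum_nil,
      below_zero]
    ring
  | cut b Y r ih =>
    intro j a W hf
    obtain ⟨_, _, hY, _, hr⟩ := hf
    have h1 := ih j a (W \ Y) hr
    simp only [dep, exits, List.map_cons, List.sum_cons]
    have h2 : below j a J1 (fun j' a' => g j' a' W) =
        below j a J1 (fun j' a' => g j' a' Y) + below j a J1 (fun j' a' => g j' a' (W \ Y)) := by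
      rw [← below_add]
      exact below_congr fun j' a' _ _ _ => hadd j' a' W Y hY
    rw [h2, h1]
    ring
  | desc l r ihl ihr =>
    intro j a W hf
    obtain ⟨_, _, hl, hr⟩ := hf
    have h1 := ihl _ _ _ hl
    have h2 := ihr _ _ _ hr
    simp only [exits, List.map_append, List.sum_append]
    rcases lt_or_ge j J1 with hj | hj
    · rw [below_succ _ hj, below_succ _ hj]
      have e0 : dep n (Ep.desc l r) j a W j a = W := by simp [dep]
      have e1 : below (j + 1) (2 * a) J1
          (fun j' a' => g j' a' (dep n (Ep.desc l r) j a W j' a')) =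
          below (j + 1) (2 * a) J1 (fun j' a' => g j' a'
            (dep n l (j + 1) (2 * a) (W ∩ nd n (j + 1) (2 * a)) j' a')) := by
        apply below_congr
        intro j' a' h3 _ h5
        have : ¬ j' ≤ j := by omega
        simp only [dep, this, if_false, h5, if_true]
      have e2 : below (j + 1) (2 * a + 1) J1
          (fun j' a' => g j' a' (dep n (Ep.desc l r) j a W j' a')) =
          below (j + 1) (2 * a + 1) J1 (fun j' a' => g j' a'
            (dep n r (j + 1) (2 * a + 1) (W ∩ nd n (j + 1) (2 * a + 1)) j' a')) := by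
        apply below_congr
        intro j' a' h3 _ h5
        have h6 : ¬ j' ≤ j := by omega
        have h7 : ¬ (2 * a + 1 = 2 * a) := by omega
        simp only [dep, h6, if_false, h5, h7, if_true]
      have e3 : below (j + 1) (2 * a) J1 (fun j' a' => g j' a' W) =
          below (j + 1) (2 * a) J1 (fun j' a' => g j' a' (W ∩ nd n (j + 1) (2 * a))) :=
        below_congr fun j' a' h3 h4 h5 => (hloc _ _ j' a' W h3 h4 h5).symm
      have e4 : below (j + 1) (2 * a + 1) J1 (fun j' a' => g j' a' W) =
          below (j + 1) (2 * a + 1) J1 (fun j' a' => g j' a' (W ∩ nd n (j + 1) (2 * a + 1))) :=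
        below_congr fun j' a' h3 h4 h5 => (hloc _ _ j' a' W h3 h4 h5).symm
      rw [e0, e1, e2, e3, e4, h1, h2]
      ring
    · rw [below_ge _ hj, below_ge _ hj]
      rw [below_ge _ (by omega : J1 ≤ j + 1), below_ge _ (by omega : J1 ≤ j + 1)] at h1 h2
      rw [zero_add] at h1 h2
      rw [← h1, ← h2]
      simp

/-- norm form -/
theorem norm_below_plan (g : ℕ → ℕ → Finset ℕ → ℂ) {J1 : ℕ}
    (hadd : ∀ j a W Y, Y ⊆ W → g j a W = g j a Y + g j a (W \ Y))
    (hloc : ∀ j a j' a' W, j ≤ j' → j' < J1 → a' / 2 ^ (j' - j) = a →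
      g j' a' (W ∩ nd n j a) = g j' a' W) (E : Ep β) (j a : ℕ) (W : Finset ℕ)
    (hf : Fits n Stop Done Piece E j a W) :
    ‖below j a J1 (fun j' a' => g j' a' W)‖ ≤
      ‖below j a J1 (fun j' a' => g j' a' (dep n E j a W j' a'))‖ +
        ((exits n E j a W).map fun e => ‖below e.j e.a J1 fun j' a' => g j' a' e.Y‖).sum := by
  rw [below_plan g hadd hloc E j a W hf]
  refine (norm_add_le _ _).trans ?_
  have key : ∀ L : List (Rec β), ‖(L.map fun e => below e.j e.a J1 fun j' a' => g j' a' e.Y).sum‖ ≤
      (L.map fun e => ‖below e.j e.a J1 fun j' a' => g j' a' e.Y‖).sum := by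
    intro L
    induction L with
    | nil => simp
    | cons e L ih =>
      simp only [List.map_cons, List.sum_cons]
      exact (norm_add_le _ _).trans (by linarith)
  linarith [key (exits n E j a W)]

/-- **Sums over the leaves.** -/
theorem sum_plan (f : ℕ → ℝ) (hbot : ∀ j a W, n ≤ j → Stop j a W) (E : Ep β) :
    ∀ j a W, W ⊆ nd n j a → Fits n Stop Done Piece E j a W →
      ((exits n E j a W).map fun e => ∑ i ∈ e.Y, f i).sum = ∑ i ∈ W, f i := by
  induction E with
  | stop => intro j a W _ _; simp [exits]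
  | cut b Y r ih =>
    intro j a W hW hf
    obtain ⟨_, _, hY, _, hr⟩ := hf
    have h1 := ih j a (W \ Y) (Finset.sdiff_subset.trans hW) hr
    simp only [exits, List.map_cons, List.sum_cons]
    rw [h1, add_comm, Finset.sum_sdiff hY]
  | desc l r ihl ihr =>
    intro j a W hW hf
    obtain ⟨hs, _, hl, hr⟩ := hf
    have hj : j < n := by by_contra h; exact hs (hbot j a W (by omega))
    have h1 := ihl _ _ _ Finset.inter_subset_right hl
    have h2 := ihr _ _ _ Finset.inter_subset_right hr
    simp only [exits, List.map_append, List.sum_append]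
    rw [h1, h2, ← Finset.sum_union]
    · rw [← Finset.inter_union_distrib_left, nd_split j a hj, Finset.inter_eq_left.mpr hW]
    · exact (nd_disj j a).mono Finset.inter_subset_right Finset.inter_subset_right

/-- the stop exits sit at disjoint nodes -/
theorem sum_stop (E : Ep β) : ∀ j a W,
    ((exits n E j a W).map fun e => if e.b.isNone then (1 / 2 : ℝ) ^ e.j else 0).sum =
      (1 / 2 : ℝ) ^ j := by
  induction E with
  | stop => intro j a W; simp [exits]
  | cut b Y r ih =>
    intro j a W
    have h := ih j a (W \ Y)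
    simp only [exits, List.map_cons, List.sum_cons, h]
    simp
  | desc l r ihl ihr =>
    intro j a W
    simp only [exits, List.map_append, List.sum_append, ihl, ihr]
    rw [pow_succ]; ring

/-- what is known at an exit -/
structure ExitOk (n : ℕ) (Stop : ℕ → ℕ → Finset ℕ → Prop)
    (Piece : ℕ → ℕ → Finset ℕ → β → Finset ℕ → Prop) (j a : ℕ) (W : Finset ℕ) (e : Rec β) :
    Prop where
  j_ge : j ≤ e.j
  j_le : e.j ≤ n
  a_lt : e.a < 2 ^ e.j
  anc : e.a / 2 ^ (e.j - j) = a
  Z_sub : e.Z ⊆ W
  Z_nd : e.Z ⊆ nd n e.j e.a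
  Y_sub : e.Y ⊆ e.Z
  none_case : e.b = none → e.Y = e.Z ∧ Stop e.j e.a e.Z
  some_case : ∀ b, e.b = some b → ¬ Stop e.j e.a e.Z ∧ Piece e.j e.a e.Z b e.Y ∧ e.Y.Nonempty

theorem exits_spec (hbot : ∀ j a W, n ≤ j → Stop j a W) (E : Ep β) :
    ∀ j a W, W ⊆ nd n j a → j ≤ n → a < 2 ^ j → Fits n Stop Done Piece E j a W →
      ∀ e ∈ exits n E j a W, ExitOk n Stop Piece j a W e := by
  induction E with
  | stop =>
    intro j a W hW hj ha hf e he
    simp only [exits, List.mem_singleton] at he
    subst he
    exact ⟨le_rfl, hj, ha, by simp, Finset.Subset.refl _, hW, Finset.Subset.refl _,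
      fun _ => ⟨rfl, hf⟩, fun b hb => by simp at hb⟩
  | cut b Y r ih =>
    intro j a W hW hj ha hf e he
    obtain ⟨hs, hp, hY, hne, hr⟩ := hf
    simp only [exits, List.mem_cons] at he
    rcases he with he | he
    · subst he
      exact ⟨le_rfl, hj, ha, by simp, Finset.Subset.refl _, hW, hY,
        fun hb => by simp at hb, fun b' hb => by
          simp only [Option.some.injEq] at hb
          subst hb; exact ⟨hs, hp, hne⟩⟩
    · have h1 := ih j a (W \ Y) (Finset.sdiff_subset.trans hW) hj ha hr e he
      exact { h1 with Z_sub := h1.Z_sub.trans Finset.sdiff_subset }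
  | desc l r ihl ihr =>
    intro j a W hW hj ha hf e he
    obtain ⟨hs, _, hl, hr⟩ := hf
    have hjn : j < n := by by_contra h; exact hs (hbot j a W (by omega))
    simp only [exits, List.mem_append] at he
    have key : ∀ c, c = 2 * a ∨ c = 2 * a + 1 →
        ExitOk n Stop Piece (j + 1) c (W ∩ nd n (j + 1) c) e → ExitOk n Stop Piece j a W e := by
      intro c hc h1
      have h2 := h1.j_ge
      refine ⟨by omega, h1.j_le, h1.a_lt, ?_, h1.Z_sub.trans Finset.inter_subset_left, h1.Z_nd,
        h1.Y_sub, h1.none_case, h1.some_case⟩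
      have e1 : 2 ^ (e.j - j) = 2 ^ (e.j - (j + 1)) * 2 := by
        rw [← pow_succ]; congr 1; omega
      rw [e1, ← Nat.div_div_eq_div_mul, h1.anc]
      omega
    have hpow : 2 ^ (j + 1) = 2 * 2 ^ j := by rw [pow_succ']
    rcases he with he | he
    · exact key _ (Or.inl rfl)
        (ihl _ _ _ Finset.inter_subset_right (by omega) (by omega) hl e he)
    · exact key _ (Or.inr rfl)
        (ihr _ _ _ Finset.inter_subset_right (by omega) (by omega) hr e he)

/-- progress at a stop exit: the node is deeper or the set is smaller -/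
theorem exits_progress (hbot : ∀ j a W, n ≤ j → Stop j a W) (E : Ep β) (j a : ℕ) (W : Finset ℕ)
    (hW : W ⊆ nd n j a) (hj : j ≤ n) (ha : a < 2 ^ j) (hf : Fits n Stop Done Piece E j a W)
    (hns : ¬ Stop j a W) : ∀ e ∈ exits n E j a W, e.b = none → j < e.j ∨ e.Y ⊂ W := by
  cases E with
  | stop => exact absurd hf hns
  | cut b Y r =>
    intro e he hb
    obtain ⟨hs, hp, hY, hne, hr⟩ := hf
    simp only [exits, List.mem_cons] at he
    rcases he with he | he
    · subst he; simp at hb
    · right
      have h1 := exits_spec hbot r j a (W \ Y) (Finset.sdiff_subset.trans hW) hj ha hr e he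
      exact lt_of_le_of_lt (h1.Y_sub.trans h1.Z_sub) (Finset.sdiff_ssubset hY hne)
  | desc l r =>
    intro e he _
    obtain ⟨hs, _, hl, hr⟩ := hf
    have hjn : j < n := by by_contra h; exact hs (hbot j a W (by omega))
    have hpow : 2 ^ (j + 1) = 2 * 2 ^ j := by rw [pow_succ']
    simp only [exits, List.mem_append] at he
    left
    rcases he with he | he
    · have h1 := exits_spec hbot l _ _ _ Finset.inter_subset_right (by omega) (by omega) hl e he
      have := h1.j_ge
      omega
    · have h1 := exits_spec hbot r _ _ _ Finset.inter_subset_right (by omega) (by omega) hr e he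
      have := h1.j_ge
      omega

end Vale.Agent.P091.T.H17
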